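import Vale.Agent.P242.H266.Psi
import Vale.Agent.P242.H975.Defs

/-!
The gluing statement `GlueStatement` of `H975/Defs.lean` (package B-a of the blueprint P242,
Part B), helper266.
-/

open scoped RealInnerProductSpace Topology

namespace Vale.Agent.P242.H266

open Real Finset Vale.Agent.P242.PB

noncomputable section

variable {n : ℕ}

/-- the cells around `z` -/
def boxF (r : ℝ) (z : EE n) (N : ℝ) : Finset (Fin n → ℤ) :=
  Fintype.piFinset fun i => Finset.Icc ⌈z i / r - 1 - N⌉ ⌊z i / r + 1 + N⌋

/-- the relevant cells at `z` -/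
def relF (r : ℝ) (z : EE n) : Finset (Fin n → ℤ) := boxF r z 0

lemma mem_boxF {r : ℝ} (hr : 0 < r) (z : EE n) (N : ℝ) (a : Fin n → ℤ) :
    a ∈ boxF r z N ↔ ∀ i, |z i - r * a i| ≤ (1 + N) * r := by
  unfold boxF
  rw [Fintype.mem_piFinset]
  apply forall_congr'
  intro i
  rw [Finset.mem_Icc, Int.ceil_le, Int.le_floor, abs_le]
  have e : z i = (z i / r) * r := by field_simp
  constructor
  · rintro ⟨h1, h2⟩
    have h1' := mul_le_mul_of_nonneg_right h1 hr.le
    have h2' := mul_le_mul_of_nonneg_right h2 hr.le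
    constructor
    · nlinarith
    · nlinarith
  · rintro ⟨h1, h2⟩
    constructor
    · refine le_of_mul_le_mul_right ?_ hr
      nlinarith
    · refine le_of_mul_le_mul_right ?_ hr
      nlinarith

lemma mem_relF {r : ℝ} (hr : 0 < r) (z : EE n) (a : Fin n → ℤ) :
    a ∈ relF r z ↔ Rel r a z := by
  unfold relF Rel
  rw [mem_boxF hr]
  simp

lemma relF_sub_boxF {r : ℝ} (hr : 0 < r) {z z' : EE n} {N : ℝ} (h : ‖z' - z‖ ≤ N * r) :
    relF r z' ⊆ boxF r z N := by
  intro a ha
  rw [mem_relF hr] at ha
  rw [mem_boxF hr]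
  intro i
  have h1 := ha i
  have h2 : |z' i - z i| ≤ ‖z' - z‖ := by
    have := EuclideanSpace.norm_eq (z' - z)
    have h3 := PiLp.norm_apply_le (z' - z) i
    simpa using h3
  have e : z i - r * a i = (z' i - r * a i) - (z' i - z i) := by ring
  rw [e]
  refine (abs_sub _ _).trans ?_
  nlinarith

/-- the data with a given finite set -/
def pd (r : ℝ) (q : (Fin n → ℤ) → EE n) (Z : (Fin n → ℤ) → EE n →L[ℝ] EE n)
    (S : Finset (Fin n → ℤ)) : PD n := ⟨r, S, q, Z⟩

section indep
variable {r : ℝ} {q : (Fin n → ℤ) → EE n} {Z : (Fin n → ℤ) → EE n →L[ℝ] EE n}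
  {S : Finset (Fin n → ℤ)} {z : EE n}

lemma Psi_pd (hr : 0 < r) (hS : relF r z ⊆ S) :
    (pd r q Z S).Psi z = (pd r q Z (relF r z)).Psi z := by
  unfold PD.Psi
  congr 1
  symm
  apply Finset.sum_subset hS
  intro a _ ha
  exact PD.psiT_zero (pd r q Z (relF r z)) hr fun h => ha ((mem_relF hr z a).2 h)

lemma T_pd (hr : 0 < r) (hS : relF r z ⊆ S) :
    (pd r q Z S).T z = (pd r q Z (relF r z)).T z := by
  rw [PD.T_eq_sum, PD.T_eq_sum]
  symm
  apply Finset.sum_subset hS
  intro a _ ha
  ext1 v
  exact PD.tT_zero (pd r q Z (relF r z)) hr (fun h => ha ((mem_relF hr z a).2 h)) v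

end indep

lemma GP_of_Good {r : ℝ} (hr : 0 < r) {q : (Fin n → ℤ) → EE n}
    {Z : (Fin n → ℤ) → EE n →L[ℝ] EE n} {S : Finset (Fin n → ℤ)} {z : EE n}
    {m : Seminorm ℝ (EE n)} {β σ K : ℝ}
    (h : Good (relF r) q Z m β (K * σ * r) z) : (pd r q Z S).GP m σ K β z := by
  intro a _ hR
  exact h a ((mem_relF hr z a).2 hR)

/-- **B-a** -/
theorem glue (n : ℕ) : GlueStatement (EuclideanSpace ℝ (Fin n)) (√n) := by
  have hC := CX_pos n
  have hC1 := one_le_CX n
  have h3 : (1 : ℝ) ≤ 3 ^ n := one_le_pow₀ (by norm_num)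
  have h30 : (0 : ℝ) < 3 ^ n := by positivity
  set c : ℝ := 64 * 3 ^ n * CX n with hc
  have hc0 : 0 < c := by rw [hc]; positivity
  have hcc : 3 ^ n ≤ c := by rw [hc]; nlinarith
  have hccX : CX n ≤ c := by rw [hc]; nlinarith
  refine ⟨c, by nlinarith, ?_⟩
  intro r hr
  refine ⟨Fin n → ℤ, fun a => r • lat a, chi r, relF r, ?_, ?_, ?_, ?_, ?_, ?_, ?_⟩
  · intro z a ha
    exact ((mem_relF hr z a).1 ha).norm_le hr.le
  · intro z
    exact (rel_card hr z (relF r z) fun a ha => (mem_relF hr z a).1 ha).trans hcc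
  · intro a z
    exact chi_nonneg r a z
  · intro a z ha
    exact chi_zero hr fun h => ha ((mem_relF hr z a).2 h)
  · intro z S hS
    exact chi_sum hr z S fun a ha => hS ((mem_relF hr z a).2 ha)
  · intro a z z'
    refine (chi_lip hr a z z').trans ?_
    apply mul_le_mul_of_nonneg_right _ (norm_nonneg _)
    gcongr
  · intro q Z hZs
    refine ⟨fun z => (pd r q Z (relF r z)).Psi z, fun z => (pd r q Z (relF r z)).T z,
      fun z => (1 / 2 : ℝ) • ((pd r q Z (relF r z)).QQ z +
        ContinuousLinearMap.adjoint ((pd r q Z (relF r z)).QQ z)), ?_, ?_, ?_⟩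
    · intro z
      have h1 : HasFDerivAt (pd r q Z (boxF r z 1)).Psi
          (ContinuousLinearMap.id ℝ (EE n) + (pd r q Z (boxF r z 1)).T z) z :=
        PD.hasFDerivAt_Psi _ (fun a _ v w => hZs a v w) z
      have h2 : relF r z ⊆ boxF r z 1 := relF_sub_boxF hr (by simp [hr.le])
      have h3 : (1 : EE n →L[ℝ] EE n) + (pd r q Z (relF r z)).T z =
          ContinuousLinearMap.id ℝ (EE n) + (pd r q Z (boxF r z 1)).T z := by
        rw [T_pd hr h2]
        rfl
      rw [h3]
      refine h1.congr_of_eventuallyEq ?_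
      filter_upwards [Metric.ball_mem_nhds z hr] with y hy
      symm
      apply Psi_pd hr
      apply relF_sub_boxF hr
      rw [one_mul, ← dist_eq_norm]
      exact (Metric.mem_ball.1 hy).le
    · intro z v w
      have h1 := PD.metric_identity (pd r q Z (relF r z)) (fun a _ v w => hZs a v w) z v w
      rw [h1]
      have e1 : inner ℝ ((pd r q Z (relF r z)).Zb z v) w =
          ∑ a ∈ relF r z, chi r a z * inner ℝ (Z a v) w := by
        unfold PD.Zb
        rw [_root_.sum_apply, sum_inner]
        apply Finset.sum_congr rfl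
        intro a _
        change inner ℝ (chi r a z • Z a v) w = _
        rw [real_inner_smul_left]
      have e2 : 2 * inner ℝ (((1 / 2 : ℝ) • ((pd r q Z (relF r z)).QQ z +
          ContinuousLinearMap.adjoint ((pd r q Z (relF r z)).QQ z))) v) w =
          inner ℝ ((pd r q Z (relF r z)).QQ z v) w + inner ℝ v ((pd r q Z (relF r z)).QQ z w) := by
        change 2 * inner ℝ ((1 / 2 : ℝ) • ((pd r q Z (relF r z)).QQ z v +
          ContinuousLinearMap.adjoint ((pd r q Z (relF r z)).QQ z) v)) w = _
        rw [real_inner_smul_left, inner_add_left, ContinuousLinearMap.adjoint_inner_left]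
        ring
      rw [e1, e2]
    · intro m β e σ K hβ hσ hσe hK he hσm
      have hK0 : 0 ≤ K := zero_le_one.trans hK
      have he0 : 0 ≤ e := hσ.trans hσe
      have hcs : PD.Cs m σ e K β :=
        ⟨hσ, he0, hK0, hβ, fun v => (hσm v).trans (by
          have := apply_nonneg m v
          linarith), he⟩
      have hKK : (1 + K) ^ 2 * (e + σ) ≤ 8 * (K ^ 2 * e) := by
        have a1 : (1 + K) ^ 2 ≤ 4 * K ^ 2 := by nlinarith
        calc (1 + K) ^ 2 * (e + σ) ≤ (4 * K ^ 2) * (2 * e) :=
              mul_le_mul a1 (by linarith) (by linarith) (by positivity)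
          _ = _ := by ring
      refine ⟨?_, ?_, ?_⟩
      · intro z hz
        have hgp : (pd r q Z (relF r z)).GP m σ K β z := GP_of_Good hr hz
        refine ⟨?_, ?_, ?_⟩
        · intro v
          refine (PD.norm_T_le hr hcs hgp v).trans ?_
          have hm := apply_nonneg m v
          calc 4 * 3 ^ n * CX n * (1 + K) ^ 2 * β * (e + σ) * m v =
              (4 * 3 ^ n * CX n * β * m v) * ((1 + K) ^ 2 * (e + σ)) := by ring
            _ ≤ (4 * 3 ^ n * CX n * β * m v) * (8 * (K ^ 2 * e)) :=
              mul_le_mul_of_nonneg_left hKK (by positivity)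
            _ = (1 / 2) * (c * K ^ 2 * β * e * m v) := by rw [hc]; ring
            _ ≤ c * K ^ 2 * β * e * m v := by
              have : 0 ≤ c * K ^ 2 * β * e * m v := by positivity
              linarith
        · intro v w
          have h1 := PD.norm_QQ_le hr hcs hgp
          have h2 : ‖(pd r q Z (relF r z)).QQ z v‖ ≤ c * K ^ 2 * β * σ ^ 2 * ‖v‖ := by
            refine (ContinuousLinearMap.le_opNorm _ _).trans ?_
            apply mul_le_mul_of_nonneg_right _ (norm_nonneg _)
            refine h1.trans ?_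
            calc 3 ^ n * (CX n * K ^ 2 * β * σ ^ 2) = (3 ^ n * CX n) * (K ^ 2 * β * σ ^ 2) := by
                  ring
              _ ≤ c * (K ^ 2 * β * σ ^ 2) := by
                  apply mul_le_mul_of_nonneg_right _ (by positivity)
                  rw [hc]
                  nlinarith [mul_pos h30 hC]
              _ = _ := by ring
          have h2' : ‖(pd r q Z (relF r z)).QQ z w‖ ≤ c * K ^ 2 * β * σ ^ 2 * ‖w‖ := by
            refine (ContinuousLinearMap.le_opNorm _ _).trans ?_
            apply mul_le_mul_of_nonneg_right _ (norm_nonneg _)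
            refine h1.trans ?_
            calc 3 ^ n * (CX n * K ^ 2 * β * σ ^ 2) = (3 ^ n * CX n) * (K ^ 2 * β * σ ^ 2) := by
                  ring
              _ ≤ c * (K ^ 2 * β * σ ^ 2) := by
                  apply mul_le_mul_of_nonneg_right _ (by positivity)
                  rw [hc]
                  nlinarith [mul_pos h30 hC]
              _ = _ := by ring
          change |inner ℝ ((1 / 2 : ℝ) • ((pd r q Z (relF r z)).QQ z v +
            ContinuousLinearMap.adjoint ((pd r q Z (relF r z)).QQ z) v)) w| ≤ _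
          rw [real_inner_smul_left, inner_add_left, ContinuousLinearMap.adjoint_inner_left,
            abs_mul, abs_of_pos (by norm_num : (0 : ℝ) < 1 / 2)]
          have b1 := abs_real_inner_le_norm ((pd r q Z (relF r z)).QQ z v) w
          have b2 := abs_real_inner_le_norm v ((pd r q Z (relF r z)).QQ z w)
          have b3 := abs_add_le (inner ℝ ((pd r q Z (relF r z)).QQ z v) w)
            (inner ℝ v ((pd r q Z (relF r z)).QQ z w))
          have b4 := mul_le_mul_of_nonneg_right h2 (norm_nonneg w)
          have b5 := mul_le_mul_of_nonneg_left h2' (norm_nonneg v)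
          have b6 : ‖v‖ * (c * K ^ 2 * β * σ ^ 2 * ‖w‖) = c * K ^ 2 * β * σ ^ 2 * ‖v‖ * ‖w‖ := by
            ring
          rw [b6] at b5
          linarith
        · refine (PD.norm_Psi_sub_le hr hcs hgp).trans ?_
          change 2 * 3 ^ n * (CX n * (1 + K) ^ 2 * β * (e + σ) * σ * r) ≤ _
          calc 2 * 3 ^ n * (CX n * (1 + K) ^ 2 * β * (e + σ) * σ * r) =
              (2 * 3 ^ n * CX n * β * σ * r) * ((1 + K) ^ 2 * (e + σ)) := by ring
            _ ≤ (2 * 3 ^ n * CX n * β * σ * r) * (8 * (K ^ 2 * e)) :=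
              mul_le_mul_of_nonneg_left hKK (by positivity)
            _ = (1 / 4) * (c * K ^ 2 * β * e * σ * r) := by rw [hc]; ring
            _ ≤ c * K ^ 2 * β * e * σ * r := by
              have : 0 ≤ c * K ^ 2 * β * e * σ * r := by positivity
              linarith
      · intro z z' hz hz' v
        classical
        have s1 : relF r z ⊆ relF r z ∪ relF r z' := Finset.subset_union_left
        have s2 : relF r z' ⊆ relF r z ∪ relF r z' := Finset.subset_union_right
        have h1 := PD.class_lemma (D := pd r q Z (relF r z ∪ relF r z')) hr hcs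
          (GP_of_Good hr hz) (GP_of_Good hr hz') v
        rw [T_pd hr s1, T_pd hr s2] at h1
        refine h1.trans ?_
        change 4 * 3 ^ n * CX n * (1 + K) ^ 2 * β * (e + σ) / r * _ ≤ _
        have hm := apply_nonneg m v
        have hm' := apply_nonneg m (z - z')
        apply mul_le_mul_of_nonneg_right _ (by positivity)
        apply div_le_div_of_nonneg_right _ hr.le
        calc 4 * 3 ^ n * CX n * (1 + K) ^ 2 * β * (e + σ) =
              (4 * 3 ^ n * CX n * β) * ((1 + K) ^ 2 * (e + σ)) := by ring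
          _ ≤ (4 * 3 ^ n * CX n * β) * (8 * (K ^ 2 * e)) :=
            mul_le_mul_of_nonneg_left hKK (by positivity)
          _ = (1 / 2) * (c * K ^ 2 * β * e) := by rw [hc]; ring
          _ ≤ c * K ^ 2 * β * e := by
            have : 0 ≤ c * K ^ 2 * β * e := by positivity
            linarith
      · intro z z' hseg
        set N : ℝ := ‖z' - z‖ / r with hN
        have hN0 : 0 ≤ N := by positivity
        have hNr : N * r = ‖z' - z‖ := by rw [hN]; field_simp
        have s1 : relF r z ⊆ boxF r z N := relF_sub_boxF hr (by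
          rw [hNr, sub_self, norm_zero]; exact norm_nonneg _)
        have s2 : relF r z' ⊆ boxF r z N := relF_sub_boxF hr (le_of_eq hNr.symm)
        have h1 := PD.mean_value (D := pd r q Z (boxF r z N)) (z := z) (w := z' - z)
          (fun a _ v w => hZs a v w) hr hcs (fun t ht => GP_of_Good hr (hseg _ (by
            rw [segment_eq_image']
            exact ⟨t, ht, rfl⟩)))
        rw [add_sub_cancel, Psi_pd hr s2, Psi_pd hr s1, T_pd hr s1] at h1
        rw [sub_add_eq_sub_sub] at h1
        refine h1.trans ?_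
        change 8 * 3 ^ n * CX n * (1 + K) ^ 2 * β * (e + σ) / r * _ ≤ _
        have hm := apply_nonneg m (z' - z)
        rw [mul_assoc (c * K ^ 2 * β * e / r)]
        apply mul_le_mul_of_nonneg_right _ (by positivity)
        apply div_le_div_of_nonneg_right _ hr.le
        calc 8 * 3 ^ n * CX n * (1 + K) ^ 2 * β * (e + σ) =
              (8 * 3 ^ n * CX n * β) * ((1 + K) ^ 2 * (e + σ)) := by ring
          _ ≤ (8 * 3 ^ n * CX n * β) * (8 * (K ^ 2 * e)) :=
            mul_le_mul_of_nonneg_left hKK (by positivity)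
          _ = c * K ^ 2 * β * e := by rw [hc]; ring

end

end Vale.Agent.P242.H266
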