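import Mathlib.MeasureTheory.Measure.OpenPos
import Mathlib.MeasureTheory.Integral.Lebesgue.Basic
import Mathlib.MeasureTheory.Constructions.BorelSpace.Metric
import Mathlib.Topology.MetricSpace.ProperSpace
import Mathlib.Topology.Algebra.Order.LiminfLimsup

/-! Pointwise comparison of two continuous kernels from the comparison of the integrals on
products of balls (helper266). -/

open MeasureTheory Metric Set
open scoped ENNReal

namespace Vale.Agent.P242.H266

variable {M : Type*} [MetricSpace M] [MeasurableSpace M] [BorelSpace M] {m : Measure M}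

/-- A continuous function is bounded above by a continuous function if this holds for the
integrals on products of small balls. -/
theorem ker_ge [m.IsOpenPosMeasure] (hfin : ∀ (x : M) (r : ℝ), m (ball x r) < ∞)
    {κ p : M → M → ℝ} (hκ : Continuous fun z : M × M => κ z.1 z.2)
    (hp : Continuous fun z : M × M => p z.1 z.2) (hp0 : ∀ x y, 0 ≤ p x y) (x₀ y₀ : M) {ρ : ℝ}
    (hρ : 0 < ρ)
    (h : ∀ r, 0 < r → r ≤ ρ →
      ∫⁻ x in ball x₀ r, ∫⁻ y in ball y₀ r, ENNReal.ofReal (κ x y) ∂m ∂m ≤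
        ∫⁻ x in ball x₀ r, ∫⁻ y in ball y₀ r, ENNReal.ofReal (p x y) ∂m ∂m) :
    κ x₀ y₀ ≤ p x₀ y₀ := by
  by_contra hc
  push Not at hc
  obtain ⟨c1, h1, h1'⟩ := exists_between hc
  obtain ⟨c2, h2, h2'⟩ := exists_between h1'
  have o1 : IsOpen {z : M × M | p z.1 z.2 < c1} := isOpen_lt hp continuous_const
  have o2 : IsOpen {z : M × M | c2 < κ z.1 z.2} := isOpen_lt continuous_const hκ
  have o := o1.inter o2
  have hmem : (x₀, y₀) ∈ {z : M × M | p z.1 z.2 < c1} ∩ {z : M × M | c2 < κ z.1 z.2} := ⟨h1, h2'⟩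
  obtain ⟨ε, hε, hball⟩ := Metric.isOpen_iff.1 o _ hmem
  set r := min ε ρ with hr
  have hr0 : 0 < r := lt_min hε hρ
  have hin : ∀ x ∈ ball x₀ r, ∀ y ∈ ball y₀ r, p x y < c1 ∧ c2 < κ x y := by
    intro x hx y hy
    have : (x, y) ∈ ball (x₀, y₀) ε := by
      rw [mem_ball, Prod.dist_eq]
      exact max_lt ((mem_ball.1 hx).trans_le (min_le_left _ _))
        ((mem_ball.1 hy).trans_le (min_le_left _ _))
    exact hball this
  have hA0 : m (ball x₀ r) ≠ 0 := (Metric.measure_ball_pos m x₀ hr0).ne'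
  have hB0 : m (ball y₀ r) ≠ 0 := (Metric.measure_ball_pos m y₀ hr0).ne'
  have hA1 : m (ball x₀ r) ≠ ∞ := (hfin x₀ r).ne
  have hB1 : m (ball y₀ r) ≠ ∞ := (hfin y₀ r).ne
  have e1 : ENNReal.ofReal c2 * m (ball y₀ r) * m (ball x₀ r) ≤
      ∫⁻ x in ball x₀ r, ∫⁻ y in ball y₀ r, ENNReal.ofReal (κ x y) ∂m ∂m := by
    have : ∫⁻ _x in ball x₀ r, ∫⁻ _y in ball y₀ r, ENNReal.ofReal c2 ∂m ∂m =
        ENNReal.ofReal c2 * m (ball y₀ r) * m (ball x₀ r) := by
      simp
    rw [← this]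
    apply setLIntegral_mono' measurableSet_ball
    intro x hx
    apply setLIntegral_mono' measurableSet_ball
    intro y hy
    exact ENNReal.ofReal_le_ofReal (hin x hx y hy).2.le
  have e2 : ∫⁻ x in ball x₀ r, ∫⁻ y in ball y₀ r, ENNReal.ofReal (p x y) ∂m ∂m ≤
      ENNReal.ofReal c1 * m (ball y₀ r) * m (ball x₀ r) := by
    have : ∫⁻ _x in ball x₀ r, ∫⁻ _y in ball y₀ r, ENNReal.ofReal c1 ∂m ∂m =
        ENNReal.ofReal c1 * m (ball y₀ r) * m (ball x₀ r) := by
      simp
    rw [← this]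
    apply setLIntegral_mono' measurableSet_ball
    intro x hx
    apply setLIntegral_mono' measurableSet_ball
    intro y hy
    exact ENNReal.ofReal_le_ofReal (hin x hx y hy).1.le
  have e3 := e1.trans ((h r hr0 (min_le_right _ _)).trans e2)
  rw [ENNReal.mul_le_mul_iff_left hA0 hA1, ENNReal.mul_le_mul_iff_left hB0 hB1] at e3
  have hc1 : 0 < c1 := (hp0 _ _).trans_lt h1
  rw [ENNReal.ofReal_le_ofReal_iff hc1.le] at e3
  linarith

end Vale.Agent.P242.H266
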