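import Mathlib

/-!
Lattice partition of unity on `EuclideanSpace ℝ (Fin n)` with explicit first and second derivatives,
and their Lipschitz bounds (package B-a of the blueprint P242, Part B, note 2715), helper266.
-/

namespace Vale.Agent.P242.H266

open Real Finset

noncomputable section

/-- the one dimensional profile -/
def phi (t : ℝ) : ℝ := smoothTransition (1 + t) * smoothTransition (1 - t)

lemma st_add (x : ℝ) : smoothTransition x + smoothTransition (1 - x) = 1 := by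
  have h := Real.smoothTransition.pos_denom x
  have h' := Real.smoothTransition.pos_denom (1 - x)
  unfold Real.smoothTransition
  have e : (1 : ℝ) - (1 - x) = x := by ring
  rw [e, add_comm (expNegInvGlue (1 - x)) (expNegInvGlue x), ← add_div]
  exact div_self h.ne'

lemma phi_contDiff {m : ℕ∞} : ContDiff ℝ m phi :=
  (Real.smoothTransition.contDiff.comp (contDiff_const.add contDiff_id)).mul
    (Real.smoothTransition.contDiff.comp (contDiff_const.sub contDiff_id))

lemma phi_nonneg (t : ℝ) : 0 ≤ phi t :=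
  mul_nonneg (Real.smoothTransition.nonneg _) (Real.smoothTransition.nonneg _)

lemma phi_le_one (t : ℝ) : phi t ≤ 1 :=
  mul_le_one₀ (Real.smoothTransition.le_one _) (Real.smoothTransition.nonneg _)
    (Real.smoothTransition.le_one _)

lemma phi_zero {t : ℝ} (h : 1 ≤ |t|) : phi t = 0 := by
  unfold phi
  rcases le_abs.1 h with h | h
  · rw [Real.smoothTransition.zero_of_nonpos (show 1 - t ≤ 0 by linarith), mul_zero]
  · rw [Real.smoothTransition.zero_of_nonpos (show 1 + t ≤ 0 by linarith), zero_mul]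

lemma phi_pair {t : ℝ} (h0 : 0 ≤ t) (h1 : t < 1) : phi t + phi (t - 1) = 1 := by
  unfold phi
  rw [Real.smoothTransition.one_of_one_le (show 1 ≤ 1 + t by linarith),
    Real.smoothTransition.one_of_one_le (show 1 ≤ 1 - (t - 1) by linarith)]
  have e : 1 + (t - 1) = t := by ring
  rw [e, one_mul, mul_one, add_comm]
  exact st_add t

lemma phi_sum (t : ℝ) (s : Finset ℤ) (hs : ∀ m : ℤ, |t - m| ≤ 1 → m ∈ s) :
    ∑ m ∈ s, phi (t - m) = 1 := by
  have hf0 := Int.floor_le t
  have hf1 := Int.lt_floor_add_one t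
  have h0 : (⌊t⌋ : ℤ) ∈ s := hs _ (by rw [abs_le]; constructor <;> linarith)
  have h1 : (⌊t⌋ + 1 : ℤ) ∈ s := hs _ (by push_cast; rw [abs_le]; constructor <;> linarith)
  have hsub : ({⌊t⌋, ⌊t⌋ + 1} : Finset ℤ) ⊆ s := by
    intro m hm
    simp only [Finset.mem_insert, Finset.mem_singleton] at hm
    rcases hm with rfl | rfl
    · exact h0
    · exact h1
  rw [← Finset.sum_subset hsub]
  · rw [Finset.sum_pair (by omega)]
    have := phi_pair (t := t - ⌊t⌋) (by linarith) (by linarith)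
    push_cast
    rw [show t - (⌊t⌋ + 1 : ℝ) = t - ⌊t⌋ - 1 by ring]
    exact this
  · intro m _ hm
    apply phi_zero
    simp only [Finset.mem_insert, Finset.mem_singleton, not_or] at hm
    by_contra hc
    push Not at hc
    rw [abs_lt] at hc
    have a1 : (m : ℝ) < t + 1 := by linarith
    have a2 : t - 1 < (m : ℝ) := by linarith
    have b1 : (m : ℝ) < ⌊t⌋ + 2 := by linarith
    have b2 : (⌊t⌋ : ℝ) - 1 < m := by linarith
    have b1' : m < ⌊t⌋ + 2 := by exact_mod_cast b1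
    have b2' : ⌊t⌋ - 1 < m := by exact_mod_cast b2
    omega

variable {n : ℕ}

/-- the `n` dimensional profile -/
def XX (y : EuclideanSpace ℝ (Fin n)) : ℝ := ∏ i, phi (y i)

/-- a lattice vector as a vector of `E` -/
def lat (a : Fin n → ℤ) : EuclideanSpace ℝ (Fin n) := WithLp.toLp 2 (fun i => (a i : ℝ))

@[simp] lemma lat_apply (a : Fin n → ℤ) (i : Fin n) : lat a i = (a i : ℝ) := rfl

lemma XX_contDiff {m : ℕ∞} : ContDiff ℝ m (XX (n := n)) := by
  unfold XX
  apply contDiff_prod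
  intro i _
  have h : ContDiff ℝ m (fun y : EuclideanSpace ℝ (Fin n) => y i) :=
    (EuclideanSpace.proj (𝕜 := ℝ) i).contDiff
  exact phi_contDiff.comp h

lemma XX_nonneg (y : EuclideanSpace ℝ (Fin n)) : 0 ≤ XX y :=
  Finset.prod_nonneg fun _ _ => phi_nonneg _

lemma XX_le_one (y : EuclideanSpace ℝ (Fin n)) : XX y ≤ 1 :=
  Finset.prod_le_one (fun _ _ => phi_nonneg _) (fun _ _ => phi_le_one _)

/-- the closed cube -/
def cube (n : ℕ) : Set (EuclideanSpace ℝ (Fin n)) := {y | ∀ i, |y i| ≤ 1}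

lemma cube_closed : IsClosed (cube n) := by
  have : cube n = ⋂ i, {y : EuclideanSpace ℝ (Fin n) | |y i| ≤ 1} := by
    ext y; simp [cube]
  rw [this]
  apply isClosed_iInter
  intro i
  apply isClosed_le _ continuous_const
  exact ((EuclideanSpace.proj (𝕜 := ℝ) i).continuous).abs

lemma norm_le_of_cube {y : EuclideanSpace ℝ (Fin n)} {c : ℝ} (hc : 0 ≤ c) (h : ∀ i, |y i| ≤ c) :
    ‖y‖ ≤ √n * c := by
  rw [EuclideanSpace.norm_eq]
  rw [show √(n : ℝ) * c = √(n * c ^ 2) by
    rw [Real.sqrt_mul (by positivity), Real.sqrt_sq hc]]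
  apply Real.sqrt_le_sqrt
  calc ∑ i, ‖y i‖ ^ 2 ≤ ∑ _i : Fin n, c ^ 2 := by
        apply Finset.sum_le_sum
        intro i _
        rw [Real.norm_eq_abs]
        exact pow_le_pow_left₀ (abs_nonneg _) (h i) 2
    _ = n * c ^ 2 := by simp

lemma cube_sub_ball : cube n ⊆ Metric.closedBall 0 (√n * 1) := by
  intro y hy
  rw [mem_closedBall_zero_iff]
  exact norm_le_of_cube zero_le_one hy

lemma tsupport_XX : tsupport (XX (n := n)) ⊆ cube n := by
  apply closure_minimal _ cube_closed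
  intro y hy i
  by_contra hc
  push Not at hc
  apply hy
  exact Finset.prod_eq_zero (Finset.mem_univ i) (phi_zero hc.le)

lemma cs_XX : HasCompactSupport (XX (n := n)) :=
  HasCompactSupport.of_support_subset_isCompact (isCompact_closedBall (0 : EuclideanSpace ℝ (Fin n)) (√n * 1))
    ((subset_tsupport _).trans (tsupport_XX.trans cube_sub_ball))

/-- gradient of the profile -/
def gX (y : EuclideanSpace ℝ (Fin n)) : EuclideanSpace ℝ (Fin n) :=
  (InnerProductSpace.toDual ℝ (EuclideanSpace ℝ (Fin n))).symm (fderiv ℝ XX y)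

/-- Hessian of the profile -/
def hX (y : EuclideanSpace ℝ (Fin n)) :
    EuclideanSpace ℝ (Fin n) →L[ℝ] EuclideanSpace ℝ (Fin n) := fderiv ℝ gX y

lemma inner_gX (y v : EuclideanSpace ℝ (Fin n)) : inner ℝ (gX y) v = fderiv ℝ XX y v := by
  unfold gX
  rw [InnerProductSpace.toDual_symm_apply]

lemma gX_contDiff {m : ℕ∞} : ContDiff ℝ m (gX (n := n)) := by
  unfold gX
  have h1 : ContDiff ℝ m (fun y : EuclideanSpace ℝ (Fin n) => fderiv ℝ XX y) :=
    (XX_contDiff (m := ⊤)).fderiv_right (by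
      exact_mod_cast le_top)
  exact (InnerProductSpace.toDual ℝ (EuclideanSpace ℝ (Fin n))).symm.contDiff.comp h1

lemma hX_contDiff {m : ℕ∞} : ContDiff ℝ m (hX (n := n)) := by
  unfold hX
  exact (gX_contDiff (m := ⊤)).fderiv_right (by exact_mod_cast le_top)

lemma tsupport_gX : tsupport (gX (n := n)) ⊆ cube n := by
  apply closure_minimal _ cube_closed
  intro y hy
  by_contra hc
  apply hy
  have h0 : y ∉ tsupport (XX (n := n)) := fun h => hc (tsupport_XX h)
  have h1 : fderiv ℝ (XX (n := n)) y = 0 := by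
    by_contra hne
    exact h0 (support_fderiv_subset ℝ hne)
  unfold gX
  rw [h1, map_zero]

lemma cs_gX : HasCompactSupport (gX (n := n)) :=
  HasCompactSupport.of_support_subset_isCompact (isCompact_closedBall (0 : EuclideanSpace ℝ (Fin n)) (√n * 1))
    ((subset_tsupport _).trans (tsupport_gX.trans cube_sub_ball))

lemma tsupport_hX : tsupport (hX (n := n)) ⊆ cube n := by
  apply closure_minimal _ cube_closed
  intro y hy
  exact tsupport_gX (support_fderiv_subset ℝ hy)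

lemma cs_hX : HasCompactSupport (hX (n := n)) :=
  HasCompactSupport.of_support_subset_isCompact (isCompact_closedBall (0 : EuclideanSpace ℝ (Fin n)) (√n * 1))
    ((subset_tsupport _).trans (tsupport_hX.trans cube_sub_ball))

lemma XX_zero {y : EuclideanSpace ℝ (Fin n)} (h : y ∉ cube n) : XX y = 0 :=
  image_eq_zero_of_notMem_tsupport fun h' => h (tsupport_XX h')

lemma gX_zero {y : EuclideanSpace ℝ (Fin n)} (h : y ∉ cube n) : gX y = 0 :=
  image_eq_zero_of_notMem_tsupport fun h' => h (tsupport_gX h')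

lemma hX_zero {y : EuclideanSpace ℝ (Fin n)} (h : y ∉ cube n) : hX y = 0 :=
  image_eq_zero_of_notMem_tsupport fun h' => h (tsupport_hX h')

/-- a common bound for the profile, its first two derivatives and their Lipschitz constants -/
lemma exists_const (n : ℕ) : ∃ C : ℝ, 1 ≤ C ∧
    (∀ y : EuclideanSpace ℝ (Fin n), ‖gX y‖ ≤ C) ∧
    (∀ y : EuclideanSpace ℝ (Fin n), ‖hX y‖ ≤ C) ∧
    (∀ y y' : EuclideanSpace ℝ (Fin n), |XX y - XX y'| ≤ C * ‖y - y'‖) ∧
    (∀ y y' : EuclideanSpace ℝ (Fin n), ‖gX y - gX y'‖ ≤ C * ‖y - y'‖) ∧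
    (∀ y y' : EuclideanSpace ℝ (Fin n), ‖hX y - hX y'‖ ≤ C * ‖y - y'‖) := by
  obtain ⟨c1, h1⟩ := (gX_contDiff (n := n) (m := 0)).continuous.bounded_above_of_compact_support cs_gX
  obtain ⟨c2, h2⟩ := (hX_contDiff (n := n) (m := 0)).continuous.bounded_above_of_compact_support cs_hX
  obtain ⟨c3, h3⟩ := ContDiff.lipschitzWith_of_hasCompactSupport (cs_XX (n := n))
    (XX_contDiff (m := 1)) (by simp)
  obtain ⟨c4, h4⟩ := ContDiff.lipschitzWith_of_hasCompactSupport (cs_gX (n := n))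
    (gX_contDiff (m := 1)) (by simp)
  obtain ⟨c5, h5⟩ := ContDiff.lipschitzWith_of_hasCompactSupport (cs_hX (n := n))
    (hX_contDiff (m := 1)) (by simp)
  refine ⟨max 1 (max c1 (max c2 (max c3 (max c4 c5)))), le_max_left _ _, ?_, ?_, ?_, ?_, ?_⟩
  · intro y
    exact (h1 y).trans (by simp)
  · intro y
    exact (h2 y).trans (by simp)
  · intro y y'
    have := h3.dist_le_mul y y'
    rw [Real.dist_eq, dist_eq_norm] at this
    exact this.trans (mul_le_mul_of_nonneg_right (by simp) (norm_nonneg _))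
  · intro y y'
    have := h4.dist_le_mul y y'
    rw [dist_eq_norm, dist_eq_norm] at this
    exact this.trans (mul_le_mul_of_nonneg_right (by simp) (norm_nonneg _))
  · intro y y'
    have := h5.dist_le_mul y y'
    rw [dist_eq_norm, dist_eq_norm] at this
    exact this.trans (mul_le_mul_of_nonneg_right (by simp) (norm_nonneg _))

/-- the constant of the profile -/
def CX (n : ℕ) : ℝ := (exists_const n).choose

lemma one_le_CX (n : ℕ) : 1 ≤ CX n := (exists_const n).choose_spec.1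

lemma CX_pos (n : ℕ) : 0 < CX n := zero_lt_one.trans_le (one_le_CX n)

/-! ### the scaled functions -/

/-- the lattice cell relation -/
def Rel (r : ℝ) (a : Fin n → ℤ) (z : EuclideanSpace ℝ (Fin n)) : Prop := ∀ i, |z i - r * a i| ≤ r

/-- the partition functions -/
def chi (r : ℝ) (a : Fin n → ℤ) (z : EuclideanSpace ℝ (Fin n)) : ℝ := XX (r⁻¹ • z - lat a)

/-- the gradient of `chi` -/
def gchi (r : ℝ) (a : Fin n → ℤ) (z : EuclideanSpace ℝ (Fin n)) : EuclideanSpace ℝ (Fin n) :=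
  r⁻¹ • gX (r⁻¹ • z - lat a)

/-- the Hessian of `chi` -/
def hchi (r : ℝ) (a : Fin n → ℤ) (z : EuclideanSpace ℝ (Fin n)) :
    EuclideanSpace ℝ (Fin n) →L[ℝ] EuclideanSpace ℝ (Fin n) :=
  (r⁻¹ * r⁻¹) • hX (r⁻¹ • z - lat a)

lemma mem_cube_iff {r : ℝ} (hr : 0 < r) (a : Fin n → ℤ) (z : EuclideanSpace ℝ (Fin n)) :
    r⁻¹ • z - lat a ∈ cube n ↔ Rel r a z := by
  unfold cube Rel
  simp only [Set.mem_ofPred_eq]
  apply forall_congr'
  intro i
  have e : (r⁻¹ • z - lat a) i = r⁻¹ * (z i - r * a i) := by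
    simp only [PiLp.sub_apply, PiLp.smul_apply, smul_eq_mul, lat_apply]
    field_simp
  rw [e, abs_mul, abs_of_pos (inv_pos.2 hr), inv_mul_le_iff₀ hr, mul_one]

lemma chi_zero {r : ℝ} (hr : 0 < r) {a : Fin n → ℤ} {z : EuclideanSpace ℝ (Fin n)}
    (h : ¬ Rel r a z) : chi r a z = 0 := by
  unfold chi
  exact XX_zero fun h' => h ((mem_cube_iff hr a z).1 h')

lemma gchi_zero {r : ℝ} (hr : 0 < r) {a : Fin n → ℤ} {z : EuclideanSpace ℝ (Fin n)}
    (h : ¬ Rel r a z) : gchi r a z = 0 := by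
  unfold gchi
  rw [gX_zero fun h' => h ((mem_cube_iff hr a z).1 h'), smul_zero]

lemma hchi_zero {r : ℝ} (hr : 0 < r) {a : Fin n → ℤ} {z : EuclideanSpace ℝ (Fin n)}
    (h : ¬ Rel r a z) : hchi r a z = 0 := by
  unfold hchi
  rw [hX_zero fun h' => h ((mem_cube_iff hr a z).1 h')]
  module

lemma chi_nonneg (r : ℝ) (a : Fin n → ℤ) (z : EuclideanSpace ℝ (Fin n)) : 0 ≤ chi r a z :=
  XX_nonneg _

lemma chi_le_one (r : ℝ) (a : Fin n → ℤ) (z : EuclideanSpace ℝ (Fin n)) : chi r a z ≤ 1 :=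
  XX_le_one _

lemma Rel.norm_le {r : ℝ} {a : Fin n → ℤ} {z : EuclideanSpace ℝ (Fin n)}
    (hr : 0 ≤ r) (h : Rel r a z) : ‖z - r • lat a‖ ≤ √n * r := by
  apply norm_le_of_cube hr
  intro i
  have := h i
  simpa using this

lemma norm_arg {r : ℝ} (hr : 0 < r) (a : Fin n → ℤ) (z z' : EuclideanSpace ℝ (Fin n)) :
    ‖(r⁻¹ • z - lat a) - (r⁻¹ • z' - lat a)‖ = ‖z - z'‖ / r := by
  rw [sub_sub_sub_cancel_right, ← smul_sub, norm_smul, Real.norm_eq_abs,
    abs_of_pos (inv_pos.2 hr), div_eq_inv_mul]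

lemma norm_gchi_le {r : ℝ} (hr : 0 < r) (a : Fin n → ℤ) (z : EuclideanSpace ℝ (Fin n)) :
    ‖gchi r a z‖ ≤ CX n / r := by
  unfold gchi
  rw [norm_smul, Real.norm_eq_abs, abs_of_pos (inv_pos.2 hr), div_eq_inv_mul]
  exact mul_le_mul_of_nonneg_left ((exists_const n).choose_spec.2.1 _) (inv_pos.2 hr).le

lemma norm_hchi_le {r : ℝ} (hr : 0 < r) (a : Fin n → ℤ) (z : EuclideanSpace ℝ (Fin n)) :
    ‖hchi r a z‖ ≤ CX n / r ^ 2 := by
  unfold hchi
  have hp : 0 < r⁻¹ * r⁻¹ := by positivity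
  rw [norm_smul, Real.norm_eq_abs, abs_of_pos hp,
    show CX n / r ^ 2 = (r⁻¹ * r⁻¹) * CX n by field_simp]
  exact mul_le_mul_of_nonneg_left ((exists_const n).choose_spec.2.2.1 _) hp.le

lemma chi_lip {r : ℝ} (hr : 0 < r) (a : Fin n → ℤ) (z z' : EuclideanSpace ℝ (Fin n)) :
    |chi r a z - chi r a z'| ≤ CX n / r * ‖z - z'‖ := by
  unfold chi
  refine ((exists_const n).choose_spec.2.2.2.1 _ _).trans (le_of_eq ?_)
  rw [norm_arg hr]
  change CX n * _ = _
  ring

lemma gchi_lip {r : ℝ} (hr : 0 < r) (a : Fin n → ℤ) (z z' : EuclideanSpace ℝ (Fin n)) :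
    ‖gchi r a z - gchi r a z'‖ ≤ CX n / r ^ 2 * ‖z - z'‖ := by
  unfold gchi
  rw [← smul_sub, norm_smul, Real.norm_eq_abs, abs_of_pos (inv_pos.2 hr)]
  refine (mul_le_mul_of_nonneg_left ((exists_const n).choose_spec.2.2.2.2.1 _ _)
    (inv_pos.2 hr).le).trans (le_of_eq ?_)
  rw [norm_arg hr]
  change r⁻¹ * (CX n * _) = _
  field_simp

lemma hchi_lip {r : ℝ} (hr : 0 < r) (a : Fin n → ℤ) (z z' : EuclideanSpace ℝ (Fin n)) :
    ‖hchi r a z - hchi r a z'‖ ≤ CX n / r ^ 3 * ‖z - z'‖ := by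
  unfold hchi
  have hp : 0 < r⁻¹ * r⁻¹ := by positivity
  rw [show (r⁻¹ * r⁻¹) • hX (r⁻¹ • z - lat a) - (r⁻¹ * r⁻¹) • hX (r⁻¹ • z' - lat a) =
    (r⁻¹ * r⁻¹) • (hX (r⁻¹ • z - lat a) - hX (r⁻¹ • z' - lat a)) by module,
    norm_smul, Real.norm_eq_abs, abs_of_pos hp]
  refine (mul_le_mul_of_nonneg_left ((exists_const n).choose_spec.2.2.2.2.2 _ _)
    hp.le).trans (le_of_eq ?_)
  rw [norm_arg hr]
  change r⁻¹ * r⁻¹ * (CX n * _) = _
  field_simp

lemma hasFDerivAt_arg (r : ℝ) (a : Fin n → ℤ) (z : EuclideanSpace ℝ (Fin n)) :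
    HasFDerivAt (fun z : EuclideanSpace ℝ (Fin n) => r⁻¹ • z - lat a)
      (r⁻¹ • ContinuousLinearMap.id ℝ (EuclideanSpace ℝ (Fin n))) z :=
  ((hasFDerivAt_id z).const_smul r⁻¹).sub_const _

lemma hasFDerivAt_chi (r : ℝ) (a : Fin n → ℤ) (z : EuclideanSpace ℝ (Fin n)) :
    HasFDerivAt (chi r a) (innerSL ℝ (gchi r a z)) z := by
  have h1 : HasFDerivAt XX (fderiv ℝ XX (r⁻¹ • z - lat a)) (r⁻¹ • z - lat a) :=
    ((XX_contDiff (m := 1)).differentiable (by simp) _).hasFDerivAt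
  have h2 := h1.comp z (hasFDerivAt_arg r a z)
  have e : innerSL ℝ (gchi r a z) =
      (fderiv ℝ XX (r⁻¹ • z - lat a)).comp
        (r⁻¹ • ContinuousLinearMap.id ℝ (EuclideanSpace ℝ (Fin n))) := by
    ext v
    simp only [innerSL_apply_apply, ContinuousLinearMap.comp_apply, smul_apply,
      ContinuousLinearMap.id_apply, map_smul, smul_eq_mul]
    rw [gchi, real_inner_smul_left, inner_gX]
  rw [e]
  exact h2

lemma hasFDerivAt_gchi (r : ℝ) (a : Fin n → ℤ) (z : EuclideanSpace ℝ (Fin n)) :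
    HasFDerivAt (gchi r a) (hchi r a z) z := by
  have h1 : HasFDerivAt gX (hX (r⁻¹ • z - lat a)) (r⁻¹ • z - lat a) :=
    ((gX_contDiff (m := 1)).differentiable (by simp) _).hasFDerivAt
  have h2 := (h1.comp z (hasFDerivAt_arg r a z)).const_smul r⁻¹
  have e : hchi r a z = r⁻¹ • ((hX (r⁻¹ • z - lat a)).comp
        (r⁻¹ • ContinuousLinearMap.id ℝ (EuclideanSpace ℝ (Fin n)))) := by
    ext1 v
    simp only [hchi, ContinuousLinearMap.comp_apply, smul_apply,
      ContinuousLinearMap.id_apply, map_smul]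
    rw [mul_smul]
  rw [e]
  exact h2

/-- the partition of unity property: any finite set containing all cells at `z` -/
lemma chi_sum {r : ℝ} (hr : 0 < r) (z : EuclideanSpace ℝ (Fin n)) (s : Finset (Fin n → ℤ))
    (hs : ∀ a, Rel r a z → a ∈ s) : ∑ a ∈ s, chi r a z = 1 := by
  classical
  set y : EuclideanSpace ℝ (Fin n) := r⁻¹ • z with hy
  let t : Fin n → Finset ℤ := fun i => Finset.Icc (⌊y i⌋ - 2) (⌊y i⌋ + 2)
  have key : ∑ a ∈ Fintype.piFinset t, chi r a z = 1 := by
    have h1 : ∀ i, ∑ m ∈ t i, phi (y i - m) = 1 := by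
      intro i
      apply phi_sum
      intro m hm
      rw [abs_le] at hm
      have hf0 := Int.floor_le (y i)
      have hf1 := Int.lt_floor_add_one (y i)
      have a1 : (m : ℝ) < ⌊y i⌋ + 3 := by linarith
      have a2 : (⌊y i⌋ : ℝ) - 2 < m + 1 := by linarith
      have b1 : m < ⌊y i⌋ + 3 := by exact_mod_cast a1
      have b2 : ⌊y i⌋ - 2 < m + 1 := by exact_mod_cast a2
      simp only [t, Finset.mem_Icc]
      omega
    have h2 := Finset.prod_univ_sum t (fun i m => phi (y i - (m : ℝ)))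
    simp only [h1, Finset.prod_const_one] at h2
    rw [h2]
    apply Finset.sum_congr rfl
    intro a _
    unfold chi XX
    apply Finset.prod_congr rfl
    intro i _
    simp [hy]
  have hz : ∀ a, chi r a z ≠ 0 → Rel r a z := by
    intro a ha
    by_contra h
    exact ha (chi_zero hr h)
  have e1 : ∑ a ∈ s, chi r a z = ∑ a ∈ s ∩ Fintype.piFinset t, chi r a z := by
    symm
    apply Finset.sum_subset Finset.inter_subset_left
    intro a ha hna
    by_contra hne
    apply hna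
    refine Finset.mem_inter.2 ⟨ha, ?_⟩
    rw [Fintype.mem_piFinset]
    intro i
    have hR := (mem_cube_iff hr a z).2 (hz a hne) i
    have e : (r⁻¹ • z - lat a) i = y i - a i := by simp [hy]
    rw [e, abs_le] at hR
    have hf0 := Int.floor_le (y i)
    have hf1 := Int.lt_floor_add_one (y i)
    have a1 : (a i : ℝ) < ⌊y i⌋ + 3 := by linarith
    have a2 : (⌊y i⌋ : ℝ) - 2 < a i + 1 := by linarith
    have b1 : a i < ⌊y i⌋ + 3 := by exact_mod_cast a1
    have b2 : ⌊y i⌋ - 2 < a i + 1 := by exact_mod_cast a2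
    simp only [t, Finset.mem_Icc]
    omega
  have e2 : ∑ a ∈ Fintype.piFinset t, chi r a z = ∑ a ∈ s ∩ Fintype.piFinset t, chi r a z := by
    symm
    apply Finset.sum_subset Finset.inter_subset_right
    intro a ha hna
    by_contra hne
    exact hna (Finset.mem_inter.2 ⟨hs a (hz a hne), ha⟩)
  rw [e1, ← e2, key]

/-- at most `3^n` cells at a point -/
lemma rel_card {r : ℝ} (hr : 0 < r) (z : EuclideanSpace ℝ (Fin n)) (s : Finset (Fin n → ℤ))
    (hs : ∀ a ∈ s, Rel r a z) : (s.card : ℝ) ≤ 3 ^ n := by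
  classical
  set y : EuclideanSpace ℝ (Fin n) := r⁻¹ • z with hy
  let t : Fin n → Finset ℤ := fun i => Finset.Icc (⌈y i⌉ - 1) (⌈y i⌉ + 1)
  have hsub : s ⊆ Fintype.piFinset t := by
    intro a ha
    rw [Fintype.mem_piFinset]
    intro i
    have hR := (mem_cube_iff hr a z).2 (hs a ha) i
    have e : (r⁻¹ • z - lat a) i = y i - a i := by simp [hy]
    rw [e, abs_le] at hR
    have hf0 := Int.le_ceil (y i)
    have hf1 := Int.ceil_lt_add_one (y i)
    have a1 : (a i : ℝ) ≤ ⌈y i⌉ + 1 := by linarith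
    have a2 : (⌈y i⌉ : ℝ) - 2 < a i := by linarith
    have b1 : a i ≤ ⌈y i⌉ + 1 := by exact_mod_cast a1
    have b2 : ⌈y i⌉ - 2 < a i := by exact_mod_cast a2
    simp only [t, Finset.mem_Icc]
    omega
  have h1 : s.card ≤ 3 ^ n := by
    refine (Finset.card_le_card hsub).trans ?_
    rw [Fintype.card_piFinset]
    have : ∀ i, (t i).card = 3 := by
      intro i
      simp only [t, Int.card_Icc]
      omega
    simp [this]
  exact_mod_cast h1

/-- bound of a finite sum of terms which live on the cells at two points -/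
lemma norm_sum_le {V : Type*} [SeminormedAddCommGroup V] {r : ℝ} (hr : 0 < r)
    (z z' : EuclideanSpace ℝ (Fin n)) (s : Finset (Fin n → ℤ)) (f : (Fin n → ℤ) → V) {M : ℝ}
    (hM : 0 ≤ M) (hf : ∀ a ∈ s, Rel r a z ∨ Rel r a z' → ‖f a‖ ≤ M)
    (h0 : ∀ a ∈ s, ¬ Rel r a z → ¬ Rel r a z' → f a = 0) :
    ‖∑ a ∈ s, f a‖ ≤ 2 * 3 ^ n * M := by
  classical
  set s1 := s.filter (fun a => Rel r a z) with hs1
  set s2 := s.filter (fun a => Rel r a z') with hs2
  have e : ∑ a ∈ s, f a = ∑ a ∈ s1 ∪ s2, f a := by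
    symm
    apply Finset.sum_subset
    · intro a ha
      rcases Finset.mem_union.1 ha with h | h
      · exact (Finset.mem_filter.1 h).1
      · exact (Finset.mem_filter.1 h).1
    · intro a ha hna
      apply h0 a ha
      · intro h
        exact hna (Finset.mem_union_left _ (Finset.mem_filter.2 ⟨ha, h⟩))
      · intro h
        exact hna (Finset.mem_union_right _ (Finset.mem_filter.2 ⟨ha, h⟩))
  rw [e]
  have hb : ∀ a ∈ s1 ∪ s2, ‖f a‖ ≤ M := by
    intro a ha
    rcases Finset.mem_union.1 ha with h | h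
    · exact hf a (Finset.mem_filter.1 h).1 (Or.inl (Finset.mem_filter.1 h).2)
    · exact hf a (Finset.mem_filter.1 h).1 (Or.inr (Finset.mem_filter.1 h).2)
  have hc1 : (s1.card : ℝ) ≤ 3 ^ n := rel_card hr z s1 fun a ha => (Finset.mem_filter.1 ha).2
  have hc2 : (s2.card : ℝ) ≤ 3 ^ n := rel_card hr z' s2 fun a ha => (Finset.mem_filter.1 ha).2
  have hc : ((s1 ∪ s2).card : ℝ) ≤ 2 * 3 ^ n := by
    have : ((s1 ∪ s2).card : ℝ) ≤ s1.card + s2.card := by
      exact_mod_cast Finset.card_union_le s1 s2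
    linarith
  calc ‖∑ a ∈ s1 ∪ s2, f a‖ ≤ (s1 ∪ s2).card • M := (norm_sum_le_of_le _ hb).trans (by simp)
    _ = ((s1 ∪ s2).card : ℝ) * M := by rw [nsmul_eq_mul]
    _ ≤ 2 * 3 ^ n * M := mul_le_mul_of_nonneg_right hc hM

end

end Vale.Agent.P242.H266
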