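import Vale.Agent.P242.H266.KerGe
import Vale.Agent.P242.H607.Dens
import Vale.Agent.P233.N2.Defs
import Vale.Agent.P233.N2.H339.CY4

/-!
P242, package F-LOW (note 3439, A0.F): pointwise lower Gaussian bound of a continuous heat kernel
from the Cheeger-Yau block H4 with a density function (helper266).
-/

set_option linter.all false

open MeasureTheory Filter Topology Set Metric
open scoped ENNReal NNReal MeasureTheory

universe u

namespace Vale.Agent.P242.H266

open Vale.Agent.P233 Vale.Agent.P233.RA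

noncomputable section

variable {M : Type u} [MetricSpace M] [MeasurableSpace M]

/-- the class of an indicator function -/
def indc (m : Measure M) (A : Set M) : M →ₘ[m] ℝ := cl m (A.indicator fun _ => (1 : ℝ))

variable {m : Measure M} {n : ℕ} {K : ℝ} {θ : M → ℝ}

theorem indc_ae {A : Set M} (hA : MeasurableSet A) :
    ⇑(indc m A) =ᵐ[m] A.indicator fun _ => (1 : ℝ) := by
  have h : AEStronglyMeasurable (A.indicator fun _ => (1 : ℝ)) m :=
    (measurable_const.indicator hA).aestronglyMeasurable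
  unfold indc cl
  rw [dif_pos h]
  exact AEEqFun.coeFn_mk _ h

theorem indc_nonneg {A : Set M} (hA : MeasurableSet A) : 0 ≤ indc m A := by
  rw [nonneg_iff_ae]
  filter_upwards [indc_ae (m := m) hA] with x hx
  rw [hx]
  exact indicator_nonneg (fun _ _ => zero_le_one) x

theorem indc_mem {A : Set M} (hA : MeasurableSet A) (hf : m A < ∞) :
    MemLp (indc m A) 2 m :=
  (memLp_congr_ae (indc_ae hA)).2 (memLp_indicator_const 2 hA 1 (Or.inr hf.ne))

theorem toR (h : N2.NSp2 m n K θ) : N2.RA.NSp m n K θ where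
  n_pos := h.n_pos
  proper := h.proper
  geo := h.geo
  full := h.full
  fin := h.fin
  growth := h.growth
  upper := h.upper
  θ_meas := h.th_meas
  θ_bd := h.th_bd
  dens := h.dens
  quadratic := h.quadratic
  s2l := h.s2l
  ww_slope := h.ww_grad
  lc := h.lc

theorem ga_pos {θ : ℝ} (hθ : 0 < θ) (n : ℕ) : 0 < ga n θ := by
  unfold ga
  have := Real.Gamma_pos_of_pos (show (0 : ℝ) < (n : ℝ) / 2 + 1 by positivity)
  positivity

theorem ga_mono {θ Θ : ℝ} (h : θ ≤ Θ) (n : ℕ) : ga n θ ≤ ga n Θ := by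
  unfold ga
  have := Real.Gamma_pos_of_pos (show (0 : ℝ) < (n : ℝ) / 2 + 1 by positivity)
  gcongr

theorem KH_nonneg {θ : ℝ} (hθ : 0 < θ) {s : ℝ} (hs : 0 < s) (x y : M) : 0 ≤ KH n K θ s x y := by
  unfold KH
  have := ga_pos hθ n
  positivity

theorem KH_anti {θ Θ : ℝ} (hθ : 0 < θ) (h : θ ≤ Θ) {s : ℝ} (hs : 0 < s) (x y : M) :
    KH n K Θ s x y ≤ KH n K θ s x y := by
  unfold KH
  have h1 := ga_pos hθ n
  have h2 := ga_mono h n
  have h3 : (ga n Θ)⁻¹ ≤ (ga n θ)⁻¹ := inv_anti₀ h1 h2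
  have h4 : 0 ≤ s ^ (-((n : ℝ) / 2)) := by positivity
  exact mul_le_mul_of_nonneg_right (mul_le_mul_of_nonneg_right h3 h4) (Real.exp_pos _).le

theorem KH_cont {Θ s : ℝ} : Continuous fun z : M × M => KH n K Θ s z.1 z.2 := by
  unfold KH gg
  fun_prop

variable [BorelSpace M] [CompleteSpace M] [SecondCountableTopology M]

/-- **Lower bound of the continuous heat kernel**, Cheeger-Yau form. Time: `Q m s = P_{s/2}`. -/
theorem low_KH (h : N2.NSp2 m n K θ) {Θ : ℝ} (hΘ : ∀ᵐ y ∂m, θ y ≤ Θ) {s : ℝ}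
    (hs : 0 < s) (hs1 : s ≤ 1) {p : M → M → ℝ} (hp : Continuous fun z : M × M => p z.1 z.2)
    (hp0 : ∀ x y, 0 ≤ p x y)
    (hP : ∀ (x₀ y₀ : M) (r : ℝ), 0 < r →
      ENNReal.ofReal (I (indc m (ball x₀ r) * Q m s (indc m (ball y₀ r)))) ≤
        ∫⁻ x in ball x₀ r, ∫⁻ y in ball y₀ r, ENNReal.ofReal (p x y) ∂m ∂m) (x y : M) :
    KH n K Θ s x y ≤ p x y := by
  haveI := h.full
  refine ker_ge (m := m) (κ := KH n K Θ s) h.fin KH_cont hp hp0 x y one_pos ?_
  intro r hr _
  refine le_trans ?_ (hP x y r hr)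
  refine le_trans ?_ (N2.H339.blk_H4 M m n K θ (toR h) s hs hs1 (indc m (ball x r)) (indc m (ball y r))
    (indc_nonneg measurableSet_ball) (indc_nonneg measurableSet_ball)
    (indc_mem measurableSet_ball (h.fin _ _)) (indc_mem measurableSet_ball (h.fin _ _)))
  rw [← lintegral_indicator measurableSet_ball]
  refine lintegral_mono_ae ?_
  filter_upwards [indc_ae (m := m) (A := ball x r) measurableSet_ball] with a ha
  by_cases hax : a ∈ ball x r
  · rw [indicator_of_mem hax, ← lintegral_indicator measurableSet_ball]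
    refine lintegral_mono_ae ?_
    filter_upwards [indc_ae (m := m) (A := ball y r) measurableSet_ball, hΘ] with b hb hbΘ
    by_cases hby : b ∈ ball y r
    · rw [indicator_of_mem hby, ha, hb, indicator_of_mem hax, indicator_of_mem hby]
      refine ENNReal.ofReal_le_ofReal ?_
      rw [one_mul, mul_one]
      exact KH_anti (h.θ_pos b) hbΘ hs a b
    · rw [indicator_of_notMem hby]
      exact zero_le
  · rw [indicator_of_notMem hax]
    exact zero_le

/-- the constant of the lower bound -/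
def cLow (n : ℕ) (K Θ : ℝ) : ℝ :=
  max (ga n Θ * (2 : ℝ) ^ ((n : ℝ) / 2) * Real.exp (bK n K)) (1 + |K| / 6 + K ^ 2 / 108)

theorem cLow_ge (n : ℕ) (K Θ : ℝ) : 1 ≤ cLow n K Θ := by
  refine le_trans ?_ (le_max_right _ _)
  have := abs_nonneg K
  have := sq_nonneg K
  linarith

/-- the Cheeger-Yau kernel at time `2t` in Gaussian form -/
theorem KH_ge {Θ : ℝ} (hΘ : 0 < Θ) {t : ℝ} (ht : 0 < t) (ht1 : 2 * t ≤ 1) (x y : M) :
    (cLow n K Θ)⁻¹ * t ^ (-((n : ℝ) / 2)) * Real.exp (-(cLow n K Θ * dist x y ^ 2 / t)) ≤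
      KH n K Θ (2 * t) x y := by
  have hg := ga_pos hΘ n
  have hA1 := cLow_ge n K Θ
  have hA0 : 0 < cLow n K Θ := zero_lt_one.trans_le hA1
  have hAa : ga n Θ * (2 : ℝ) ^ ((n : ℝ) / 2) * Real.exp (bK n K) ≤ cLow n K Θ := le_max_left _ _
  have hAb : 1 + |K| / 6 + K ^ 2 / 108 ≤ cLow n K Θ := le_max_right _ _
  have hb0 : 0 ≤ bK n K := by
    unfold bK
    have := abs_nonneg K
    positivity
  unfold KH
  have e1 : (2 * t) ^ (-((n : ℝ) / 2)) = ((2 : ℝ) ^ ((n : ℝ) / 2))⁻¹ * t ^ (-((n : ℝ) / 2)) := by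
    rw [Real.mul_rpow (by norm_num) ht.le, Real.rpow_neg (by norm_num)]
  have hgg : gg y x = dist x y ^ 2 / 2 := rfl
  rw [e1, hgg]
  have hexp : Real.exp (-(cLow n K Θ * dist x y ^ 2 / t)) * Real.exp (-bK n K) ≤
      Real.exp (-(aK K (2 * t) * (dist x y ^ 2 / 2)) - bK n K * (2 * t)) := by
    rw [← Real.exp_add]
    apply Real.exp_le_exp.2
    have k1 : bK n K * (2 * t) ≤ bK n K * 1 := mul_le_mul_of_nonneg_left ht1 hb0
    have k2 : aK K (2 * t) ≤ cLow n K Θ / (2 * t) := by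
      unfold aK
      have j1 : -K / 6 ≤ |K| / 6 := by
        have := neg_abs_le K
        linarith
      have j2 : K ^ 2 / 108 * (2 * t) ≤ K ^ 2 / 108 * 1 :=
        mul_le_mul_of_nonneg_left ht1 (by positivity)
      have j3 : (1 : ℝ) ≤ 1 / (2 * t) := by
        rw [le_div_iff₀ (by positivity)]
        linarith
      have j4 : |K| / 6 + K ^ 2 / 108 ≤ (|K| / 6 + K ^ 2 / 108) * (1 / (2 * t)) := by
        have : 0 ≤ |K| / 6 + K ^ 2 / 108 := by positivity
        nlinarith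
      have j5 : (1 + |K| / 6 + K ^ 2 / 108) * (1 / (2 * t)) ≤ cLow n K Θ * (1 / (2 * t)) :=
        mul_le_mul_of_nonneg_right hAb (by positivity)
      have j6 : cLow n K Θ / (2 * t) = cLow n K Θ * (1 / (2 * t)) := by ring
      rw [j6]
      nlinarith
    have k3 : aK K (2 * t) * (dist x y ^ 2 / 2) ≤ cLow n K Θ / (2 * t) * (dist x y ^ 2 / 2) :=
      mul_le_mul_of_nonneg_right k2 (by positivity)
    have k4 : cLow n K Θ / (2 * t) * (dist x y ^ 2 / 2) ≤ cLow n K Θ * dist x y ^ 2 / t := by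
      have e2 : cLow n K Θ / (2 * t) * (dist x y ^ 2 / 2) =
        (1 / 4) * (cLow n K Θ * dist x y ^ 2 / t) := by
        field_simp
        ring
      rw [e2]
      have : 0 ≤ cLow n K Θ * dist x y ^ 2 / t := by positivity
      linarith
    linarith
  have hinv : (cLow n K Θ)⁻¹ ≤
      (ga n Θ)⁻¹ * ((2 : ℝ) ^ ((n : ℝ) / 2))⁻¹ * Real.exp (-bK n K) := by
    rw [Real.exp_neg, ← mul_inv, ← mul_inv]
    exact inv_anti₀ (by positivity) hAa
  calc (cLow n K Θ)⁻¹ * t ^ (-((n : ℝ) / 2)) * Real.exp (-(cLow n K Θ * dist x y ^ 2 / t)) ≤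
      ((ga n Θ)⁻¹ * ((2 : ℝ) ^ ((n : ℝ) / 2))⁻¹ * Real.exp (-bK n K)) * t ^ (-((n : ℝ) / 2)) *
        Real.exp (-(cLow n K Θ * dist x y ^ 2 / t)) := by
        gcongr
    _ = (ga n Θ)⁻¹ * (((2 : ℝ) ^ ((n : ℝ) / 2))⁻¹ * t ^ (-((n : ℝ) / 2))) *
        (Real.exp (-(cLow n K Θ * dist x y ^ 2 / t)) * Real.exp (-bK n K)) := by ring
    _ ≤ _ := mul_le_mul_of_nonneg_left hexp (by positivity)

/-- **Lower bound of the continuous heat kernel**, Gaussian form; times `t ≤ 1/2`. -/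
theorem low_gauss (h : N2.NSp2 m n K θ) {Θ : ℝ} (hΘ0 : 0 < Θ) (hΘ : ∀ᵐ y ∂m, θ y ≤ Θ) {t : ℝ}
    (ht : 0 < t) (ht1 : 2 * t ≤ 1) {p : M → M → ℝ} (hp : Continuous fun z : M × M => p z.1 z.2)
    (hp0 : ∀ x y, 0 ≤ p x y)
    (hP : ∀ (x₀ y₀ : M) (r : ℝ), 0 < r →
      ENNReal.ofReal (I (indc m (ball x₀ r) * (sob m).P t (indc m (ball y₀ r)))) ≤
        ∫⁻ x in ball x₀ r, ∫⁻ y in ball y₀ r, ENNReal.ofReal (p x y) ∂m ∂m) (x y : M) :
    (cLow n K Θ)⁻¹ * t ^ (-((n : ℝ) / 2)) * Real.exp (-(cLow n K Θ * dist x y ^ 2 / t)) ≤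
      p x y := by
  refine (KH_ge hΘ0 ht ht1 x y).trans ?_
  refine low_KH h hΘ (by positivity) ht1 hp hp0 ?_ x y
  intro x₀ y₀ r hr
  have e : Q m (2 * t) (indc m (ball y₀ r)) = (sob m).P t (indc m (ball y₀ r)) := by
    unfold Q
    rw [mul_div_cancel_left₀ t (by norm_num : (2 : ℝ) ≠ 0)]
  rw [e]
  exact hP x₀ y₀ r hr

/-- For the Hausdorff measure the density function is at most `2^n`. -/
theorem theta_le (h : N2.NSp2 (μH[(n : ℝ)] : Measure M) n K θ) :
    ∀ᵐ x ∂(μH[(n : ℝ)] : Measure M), θ x ≤ 2 ^ n := by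
  by_cases hM : IsEmpty M
  · exact Filter.Eventually.of_forall fun x => (hM.false x).elim
  rw [not_isEmpty_iff] at hM
  obtain ⟨x₀⟩ := hM
  haveI : IsLocallyFiniteMeasure (μH[(n : ℝ)] : Measure M) :=
    ⟨fun x => ⟨ball x 1, ball_mem_nhds x one_pos, h.fin x 1⟩⟩
  have hn : (0 : ℝ) < n := Nat.cast_pos.2 h.n_pos
  have key := H607.ae_upper_density (X := M) hn (fun i : ℕ => ball x₀ i)
    (fun x => by
      obtain ⟨i, hi⟩ := exists_nat_gt (dist x x₀)
      exact ⟨i, mem_ball.2 hi⟩)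
    (fun i => (h.fin _ _).ne)
    (fun i => by
      obtain ⟨c, hc⟩ := h.doubling x₀ i
      refine ⟨c * c, 1 / 2, by norm_num, ?_⟩
      intro x hx r hr hr1
      calc (μH[(n : ℝ)] : Measure M) (closedBall x (3 * r)) ≤
            (μH[(n : ℝ)] : Measure M) (ball x (2 * (2 * r))) :=
            measure_mono (closedBall_subset_ball (by linarith))
        _ ≤ c * (μH[(n : ℝ)] : Measure M) (ball x (2 * r)) :=
            hc x hx (2 * r) (by positivity) (by linarith)
        _ ≤ c * (c * (μH[(n : ℝ)] : Measure M) (ball x r)) := by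
            gcongr
            exact hc x hx r hr (by linarith)
        _ ≤ c * (c * (μH[(n : ℝ)] : Measure M) (closedBall x r)) := by
            gcongr
            exact ball_subset_closedBall
        _ = ((c * c : ℝ≥0) : ℝ≥0∞) * (μH[(n : ℝ)] : Measure M) (closedBall x r) := by
            rw [ENNReal.coe_mul, mul_assoc])
  filter_upwards [key, h.dens] with x h1 h2
  have hle : ∀ e : ℝ, 0 < e → θ x ≤ (1 + e) * 2 ^ n := by
    intro e he
    obtain ⟨ε, hε, h3⟩ := h1 e he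
    refine le_of_tendsto h2 ?_
    filter_upwards [Ioc_mem_nhdsGT hε] with r hr
    have h4 := h3 r hr.1 hr.2
    have hpos : 0 ≤ (1 + e) * (2 * r) ^ (n : ℝ) := by
      have := hr.1
      positivity
    have h5 : ((μH[(n : ℝ)] : Measure M) (ball x r)).toReal ≤ (1 + e) * (2 * r) ^ (n : ℝ) := by
      rw [← ENNReal.toReal_ofReal hpos]
      exact ENNReal.toReal_mono ENNReal.ofReal_ne_top ((measure_mono ball_subset_closedBall).trans h4)
    rw [div_le_iff₀ (pow_pos hr.1 n)]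
    rw [Real.rpow_natCast, mul_pow] at h5
    linarith
  refine le_of_forall_pos_le_add fun e he => ?_
  have h6 := hle (e / 2 ^ n) (by positivity)
  have e1 : (1 + e / 2 ^ n) * (2 : ℝ) ^ n = 2 ^ n + e := by
    field_simp
  linarith

end

end Vale.Agent.P242.H266
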