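import Vale.Agent.P242.H266.Low
import Vale.Agent.P242.H520.KerDefs
import Vale.Agent.P242.H990.Gauss

/-!
P242, package F-LOW (helper266): the lower Gaussian bound for the heat kernel `Ker0` (helper520),
in the form of the field `lower` of `KB` (helper990).
-/

set_option linter.all false

open MeasureTheory Filter Topology Set Metric
open scoped ENNReal NNReal MeasureTheory

universe u

namespace Vale.Agent.P242.H266

open Vale.Agent.P233 Vale.Agent.P233.RA
open Vale.Agent.P242.H520 (Ker0 pt)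

noncomputable section

variable {M : Type u} [MetricSpace M] [MeasurableSpace M]
variable {m : Measure M} {n : ℕ} {K : ℝ} {θ : M → ℝ}

theorem pt_indc [BorelSpace M] {p : ℝ → M → M → ℝ} (hp : Ker0 m p) {s : ℝ} (hs : 0 < s) {B : Set M}
    (hB : MeasurableSet B) (x : M) :
    ENNReal.ofReal (pt m p s (indc m B) x) = ∫⁻ z in B, ENNReal.ofReal (p s x z) ∂m := by
  have e : pt m p s (indc m B) x = ∫ z in B, p s x z ∂m := by
    unfold pt
    rw [← integral_indicator hB]
    refine integral_congr_ae ?_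
    filter_upwards [indc_ae (m := m) hB] with z hz
    rw [hz]
    by_cases h : z ∈ B
    · simp [h]
    · simp [h]
  rw [e]
  exact ofReal_integral_eq_lintegral_ofReal (hp.int s hs x).integrableOn
    (Eventually.of_forall fun z => hp.nonneg s hs x z)

variable [BorelSpace M] [CompleteSpace M] [SecondCountableTopology M]

theorem pairing_le (hfin : ∀ (x : M) (r : ℝ), m (ball x r) < ∞) {p : ℝ → M → M → ℝ}
    (hp : Ker0 m p) {s : ℝ} (hs : 0 < s) (x₀ y₀ : M) (r : ℝ) :
    ENNReal.ofReal (I (indc m (ball x₀ r) * (sob m).P s (indc m (ball y₀ r)))) ≤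
      ∫⁻ x in ball x₀ r, ∫⁻ y in ball y₀ r, ENNReal.ofReal (p s x y) ∂m ∂m := by
  have hrep := hp.rep s hs (indc m (ball y₀ r)) (indc_mem measurableSet_ball (hfin _ _))
  have e : I (indc m (ball x₀ r) * (sob m).P s (indc m (ball y₀ r))) =
      ∫ x in ball x₀ r, pt m p s (indc m (ball y₀ r)) x ∂m := by
    unfold I
    rw [← integral_indicator measurableSet_ball]
    refine integral_congr_ae ?_
    filter_upwards [AEEqFun.coeFn_mul (indc m (ball x₀ r)) ((sob m).P s (indc m (ball y₀ r))),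
      hrep, indc_ae (m := m) (A := ball x₀ r) measurableSet_ball] with x h1 h2 h3
    rw [h1, Pi.mul_apply, h2, h3]
    by_cases h : x ∈ ball x₀ r
    · simp only [indicator_of_mem h, one_mul]
    · simp only [indicator_of_notMem h, zero_mul]
  rw [e]
  by_cases hi : IntegrableOn (fun x => pt m p s (indc m (ball y₀ r)) x) (ball x₀ r) m
  · rw [ofReal_integral_eq_lintegral_ofReal hi]
    · refine le_of_eq (lintegral_congr fun x => ?_)
      exact pt_indc hp hs measurableSet_ball x
    · have h0 := indc_ae (m := m) (A := ball y₀ r) measurableSet_ball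
      refine Eventually.of_forall fun x => ?_
      refine integral_nonneg_of_ae ?_
      filter_upwards [h0] with z hz
      have : 0 ≤ (ball y₀ r).indicator (fun _ => (1 : ℝ)) z :=
        indicator_nonneg (fun _ _ => zero_le_one) z
      rw [← hz] at this
      exact mul_nonneg (hp.nonneg s hs x z) this
  · rw [integral_undef hi, ENNReal.ofReal_zero]
    exact zero_le

/-- **F-LOW**, for the heat kernel `Ker0`, any bound `Θ` of the density function. -/
theorem low_Ker0 (h : N2.NSp2 m n K θ) {Θ : ℝ} (hΘ0 : 0 < Θ) (hΘ : ∀ᵐ y ∂m, θ y ≤ Θ)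
    {p : ℝ → M → M → ℝ} (hp : Ker0 m p) {s : ℝ} (hs : 0 < s) (hs1 : s ≤ 1 / 2) (x z : M) :
    (cLow n K Θ)⁻¹ * (√s ^ n)⁻¹ * Real.exp (-(cLow n K Θ * dist x z ^ 2 / s)) ≤ p s x z := by
  have e : s ^ (-((n : ℝ) / 2)) = (√s ^ n)⁻¹ := by
    rw [Real.rpow_neg hs.le, Real.sqrt_eq_rpow, ← Real.rpow_natCast, ← Real.rpow_mul hs.le]
    congr 2
    ring
  rw [← e]
  exact low_gauss h hΘ0 hΘ hs (by linarith) (hp.cont s hs) (hp.nonneg s hs)
    (fun x₀ y₀ r _ => pairing_le h.fin hp hs x₀ y₀ r) x z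

/-- The field `lower` of `KB`, for every large exponent `A`; Hausdorff measure. -/
theorem lower_KB (h : N2.NSp2 (μH[(n : ℝ)] : Measure M) n K θ) {p : ℝ → M → M → ℝ}
    (hp : Ker0 (μH[(n : ℝ)] : Measure M) p) {A : ℝ} (hA : cLow n K (2 ^ n) ≤ A) (o : M) :
    ∀ s, 0 < s → s ≤ 1 / 2 → ∀ x z,
      A⁻¹ * Real.exp (-(A * dist x o)) * (√s ^ n)⁻¹ * Real.exp (-(A * dist x z ^ 2 / s)) ≤
        p s x z := by
  intro s hs hs1 x z
  refine le_trans ?_ (low_Ker0 h (by positivity : (0 : ℝ) < 2 ^ n) (theta_le h) hp hs hs1 x z)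
  have c0 : 0 < cLow n K (2 ^ n) := zero_lt_one.trans_le (cLow_ge n K _)
  have A0 : 0 < A := c0.trans_le hA
  have q0 : 0 < √s := Real.sqrt_pos.2 hs
  have e1 : Real.exp (-(A * dist x o)) ≤ 1 := by
    rw [Real.exp_le_one_iff]
    have : 0 ≤ A * dist x o := by positivity
    linarith
  have e2 : A⁻¹ ≤ (cLow n K (2 ^ n))⁻¹ := inv_anti₀ c0 hA
  have e3 : Real.exp (-(A * dist x z ^ 2 / s)) ≤
      Real.exp (-(cLow n K (2 ^ n) * dist x z ^ 2 / s)) := by
    apply Real.exp_le_exp.2
    have : cLow n K (2 ^ n) * dist x z ^ 2 / s ≤ A * dist x z ^ 2 / s := by gcongr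
    linarith
  have e4 : A⁻¹ * Real.exp (-(A * dist x o)) ≤ (cLow n K (2 ^ n))⁻¹ := by
    calc A⁻¹ * Real.exp (-(A * dist x o)) ≤ A⁻¹ * 1 := by gcongr
      _ ≤ _ := by rw [mul_one]; exact e2
  gcongr

end

end Vale.Agent.P242.H266
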