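import Vale.Agent.P242.H266.Lattice

/-!
The one step map `Psi` in tangential gauge, its derivative, and the class lemma
(package B-a of the blueprint P242, Part B, note 2715), helper266.
-/

namespace Vale.Agent.P242.H266

open Real Finset

noncomputable section

variable {n : ℕ}

/-- euclidean space -/
abbrev EE (n : ℕ) : Type := EuclideanSpace ℝ (Fin n)

/-- the data of one step -/
structure PD (n : ℕ) where
  r : ℝ
  s : Finset (Fin n → ℤ)
  q : (Fin n → ℤ) → EE n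
  Z : (Fin n → ℤ) → EE n →L[ℝ] EE n

namespace PD

variable (D : PD n)

/-- the displacement quadratic form value -/
def qf (a : Fin n → ℤ) (z : EE n) : ℝ := inner ℝ (D.Z a (z - D.q a)) (z - D.q a)

/-- one term of `Psi z - z` -/
def psiT (a : Fin n → ℤ) (z : EE n) : EE n :=
  chi D.r a z • D.Z a (z - D.q a) - ((1 / 2) * D.qf a z) • gchi D.r a z

/-- the one step map -/
def Psi (z : EE n) : EE n := z + ∑ a ∈ D.s, D.psiT a z

/-- one term of `Zb` -/
def zbT (a : Fin n → ℤ) (z : EE n) : EE n →L[ℝ] EE n := chi D.r a z • D.Z a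

/-- one term of the antisymmetric part -/
def ppT (a : Fin n → ℤ) (z : EE n) : EE n →L[ℝ] EE n :=
  (innerSL ℝ (gchi D.r a z)).smulRight (D.Z a (z - D.q a)) -
    (innerSL ℝ (D.Z a (z - D.q a))).smulRight (gchi D.r a z)

/-- one term of `Q` -/
def qqT (a : Fin n → ℤ) (z : EE n) : EE n →L[ℝ] EE n :=
  (-((1 / 2) * D.qf a z)) • hchi D.r a z

/-- the symmetric part -/
def Zb (z : EE n) : EE n →L[ℝ] EE n := ∑ a ∈ D.s, D.zbT a z

/-- the antisymmetric part -/
def PP (z : EE n) : EE n →L[ℝ] EE n := ∑ a ∈ D.s, D.ppT a z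

/-- the second order part -/
def QQ (z : EE n) : EE n →L[ℝ] EE n := ∑ a ∈ D.s, D.qqT a z

/-- `DPsi - 1` -/
def T (z : EE n) : EE n →L[ℝ] EE n := D.Zb z + D.PP z + D.QQ z

/-- one term of `T` -/
def tT (a : Fin n → ℤ) (z : EE n) : EE n →L[ℝ] EE n := D.zbT a z + D.ppT a z + D.qqT a z

lemma T_eq_sum (z : EE n) : D.T z = ∑ a ∈ D.s, D.tT a z := by
  unfold T Zb PP QQ tT
  rw [Finset.sum_add_distrib, Finset.sum_add_distrib]

lemma tT_apply (a : Fin n → ℤ) (z v : EE n) :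
    D.tT a z v = chi D.r a z • D.Z a v +
      (inner ℝ (gchi D.r a z) v • D.Z a (z - D.q a) -
        inner ℝ (D.Z a (z - D.q a)) v • gchi D.r a z) +
      (-((1 / 2) * D.qf a z)) • hchi D.r a z v := by
  simp only [tT, zbT, ppT, qqT, add_apply, sub_apply,
    ContinuousLinearMap.smulRight_apply, innerSL_apply_apply]
  rfl

lemma psiT_zero (hr : 0 < D.r) {a : Fin n → ℤ} {z : EE n} (h : ¬ Rel D.r a z) :
    D.psiT a z = 0 := by
  unfold psiT
  rw [chi_zero hr h, gchi_zero hr h, zero_smul, smul_zero, sub_zero]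

lemma zbT_zero (hr : 0 < D.r) {a : Fin n → ℤ} {z : EE n} (h : ¬ Rel D.r a z) (v : EE n) :
    D.zbT a z v = 0 := by
  change chi D.r a z • D.Z a v = 0
  rw [chi_zero hr h, zero_smul]

lemma qqT_zero (hr : 0 < D.r) {a : Fin n → ℤ} {z : EE n} (h : ¬ Rel D.r a z) (v : EE n) :
    D.qqT a z v = 0 := by
  change (-((1 / 2) * D.qf a z)) • hchi D.r a z v = 0
  rw [hchi_zero hr h]
  change (-((1 / 2) * D.qf a z)) • (0 : EE n) = 0
  rw [smul_zero]

lemma tT_zero (hr : 0 < D.r) {a : Fin n → ℤ} {z : EE n} (h : ¬ Rel D.r a z) (v : EE n) :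
    D.tT a z v = 0 := by
  rw [tT_apply, chi_zero hr h, gchi_zero hr h, hchi_zero hr h]
  change (0 : ℝ) • D.Z a v + (inner ℝ (0 : EE n) v • D.Z a (z - D.q a) -
    inner ℝ (D.Z a (z - D.q a)) v • (0 : EE n)) + (-((1 / 2) * D.qf a z)) • (0 : EE n) = 0
  rw [inner_zero_left, zero_smul, zero_smul, smul_zero, smul_zero]
  simp

/-- the derivative of one term -/
lemma hasFDerivAt_psiT {a : Fin n → ℤ} (hZ : ∀ v w, inner ℝ (D.Z a v) w = inner ℝ v (D.Z a w))
    (z : EE n) : HasFDerivAt (D.psiT a) (D.tT a z) z := by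
  have hx : HasFDerivAt (fun z : EE n => z - D.q a) (ContinuousLinearMap.id ℝ (EE n)) z :=
    (hasFDerivAt_id z).sub_const _
  have hZx : HasFDerivAt (fun z : EE n => D.Z a (z - D.q a)) (D.Z a) z := by
    exact (D.Z a).hasFDerivAt.comp z hx
  have h1 := (hasFDerivAt_chi D.r a z).smul hZx
  have hqf : HasFDerivAt (D.qf a) ((2 : ℝ) • innerSL ℝ (D.Z a (z - D.q a))) z := by
    have h := hZx.inner ℝ hx
    have e : (2 : ℝ) • innerSL ℝ (D.Z a (z - D.q a)) =
        (fderivInnerCLM ℝ (D.Z a (z - D.q a), z - D.q a)).comp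
          ((D.Z a).prod (ContinuousLinearMap.id ℝ (EE n))) := by
      ext v
      simp only [ContinuousLinearMap.comp_apply, ContinuousLinearMap.prod_apply,
        ContinuousLinearMap.id_apply, fderivInnerCLM_apply]
      change (2 : ℝ) * inner ℝ (D.Z a (z - D.q a)) v = _
      rw [hZ v (z - D.q a), real_inner_comm v (D.Z a (z - D.q a))]
      rw [real_inner_comm (D.Z a (z - D.q a)) v]
      ring
    rw [e]
    exact h
  have h2 := (hqf.const_mul (1 / 2 : ℝ)).smul (hasFDerivAt_gchi D.r a z)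
  have h3 := h1.sub h2
  refine h3.congr_fderiv ?_
  ext1 v
  rw [tT_apply]
  change chi D.r a z • D.Z a v + inner ℝ (gchi D.r a z) v • D.Z a (z - D.q a) -
    (((1 / 2 : ℝ) * D.qf a z) • hchi D.r a z v +
      ((1 / 2 : ℝ) * ((2 : ℝ) * inner ℝ (D.Z a (z - D.q a)) v)) • gchi D.r a z) = _
  module

/-- the derivative of `Psi` -/
lemma hasFDerivAt_Psi (hZ : ∀ a ∈ D.s, ∀ v w, inner ℝ (D.Z a v) w = inner ℝ v (D.Z a w))
    (z : EE n) : HasFDerivAt D.Psi (ContinuousLinearMap.id ℝ (EE n) + D.T z) z := by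
  rw [T_eq_sum]
  exact (hasFDerivAt_id z).add (HasFDerivAt.fun_sum fun a ha => D.hasFDerivAt_psiT (hZ a ha) z)

/-! ### the algebraic identity for the pulled back metric -/

lemma ppT_antisymm (a : Fin n → ℤ) (z v w : EE n) :
    inner ℝ (D.ppT a z v) w = - inner ℝ v (D.ppT a z w) := by
  change inner ℝ (inner ℝ (gchi D.r a z) v • D.Z a (z - D.q a) -
    inner ℝ (D.Z a (z - D.q a)) v • gchi D.r a z) w =
    - inner ℝ v (inner ℝ (gchi D.r a z) w • D.Z a (z - D.q a) -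
    inner ℝ (D.Z a (z - D.q a)) w • gchi D.r a z)
  rw [inner_sub_left, inner_sub_right, real_inner_smul_left, real_inner_smul_left,
    real_inner_smul_right, real_inner_smul_right, real_inner_comm v (gchi D.r a z),
    real_inner_comm v (D.Z a (z - D.q a)), real_inner_comm w (gchi D.r a z),
    real_inner_comm w (D.Z a (z - D.q a))]
  ring

lemma PP_antisymm (z v w : EE n) : inner ℝ (D.PP z v) w = - inner ℝ v (D.PP z w) := by
  unfold PP
  rw [_root_.sum_apply, _root_.sum_apply, sum_inner, inner_sum,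
    ← Finset.sum_neg_distrib]
  exact Finset.sum_congr rfl fun a _ => D.ppT_antisymm a z v w

lemma Zb_symm (hZ : ∀ a ∈ D.s, ∀ v w, inner ℝ (D.Z a v) w = inner ℝ v (D.Z a w)) (z v w : EE n) :
    inner ℝ (D.Zb z v) w = inner ℝ v (D.Zb z w) := by
  unfold Zb
  rw [_root_.sum_apply, _root_.sum_apply, sum_inner, inner_sum]
  apply Finset.sum_congr rfl
  intro a ha
  change inner ℝ (chi D.r a z • D.Z a v) w = inner ℝ v (chi D.r a z • D.Z a w)
  rw [real_inner_smul_left, real_inner_smul_right, hZ a ha]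

/-- `DPsi^T DPsi = 1 + 2 Zb + (Q + Q^T) + T^T T` -/
lemma metric_identity (hZ : ∀ a ∈ D.s, ∀ v w, inner ℝ (D.Z a v) w = inner ℝ v (D.Z a w))
    (z v w : EE n) :
    inner ℝ (v + D.T z v) (w + D.T z w) = inner ℝ v w + 2 * inner ℝ (D.Zb z v) w +
      (inner ℝ (D.QQ z v) w + inner ℝ v (D.QQ z w)) + inner ℝ (D.T z v) (D.T z w) := by
  have h1 := D.Zb_symm hZ z v w
  have h2 := D.PP_antisymm z v w
  have e1 : inner ℝ (D.T z v) w = inner ℝ (D.Zb z v) w + inner ℝ (D.PP z v) w +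
      inner ℝ (D.QQ z v) w := by
    change inner ℝ (D.Zb z v + D.PP z v + D.QQ z v) w = _
    rw [inner_add_left, inner_add_left]
  have e2 : inner ℝ v (D.T z w) = inner ℝ v (D.Zb z w) + inner ℝ v (D.PP z w) +
      inner ℝ v (D.QQ z w) := by
    change inner ℝ v (D.Zb z w + D.PP z w + D.QQ z w) = _
    rw [inner_add_right, inner_add_right]
  rw [inner_add_left, inner_add_right, inner_add_right, e1, e2, ← h1, h2]
  ring

/-! ### bounds -/

/-- the constants and the seminorm of the class lemma -/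
structure Cs (m : Seminorm ℝ (EE n)) (σ e K B : ℝ) : Prop where
  hσ0 : 0 ≤ σ
  he0 : 0 ≤ e
  hK : 0 ≤ K
  hB : 0 ≤ B
  hσ : ∀ v, σ * ‖v‖ ≤ 2 * m v
  he : ∀ v, m v ≤ e * ‖v‖

/-- the point `z` is good -/
def GP (D : PD n) (m : Seminorm ℝ (EE n)) (σ K B : ℝ) (z : EE n) : Prop :=
  ∀ a ∈ D.s, Rel D.r a z → (∀ v w, |inner ℝ (D.Z a v) w| ≤ B * m v * m w) ∧
    m (z - D.q a) ≤ K * σ * D.r

variable {D}
variable {m : Seminorm ℝ (EE n)} {σ e K B : ℝ} {z z' : EE n}

/-- operator bound from the form bound -/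
lemma norm_Z_le {A : EE n →L[ℝ] EE n} {B e : ℝ} {m : Seminorm ℝ (EE n)} (hB : 0 ≤ B)
    (he : ∀ v, m v ≤ e * ‖v‖) (he0 : 0 ≤ e)
    (hZ : ∀ v w, |inner ℝ (A v) w| ≤ B * m v * m w) (v : EE n) :
    ‖A v‖ ≤ B * e * m v := by
  have hm := apply_nonneg m v
  by_cases h0 : ‖A v‖ = 0
  · rw [h0]
    positivity
  · have hpos : 0 < ‖A v‖ := lt_of_le_of_ne (norm_nonneg _) (Ne.symm h0)
    have h1 := hZ v (A v)
    rw [real_inner_self_eq_norm_sq, abs_of_nonneg (by positivity)] at h1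
    have h2 := he (A v)
    have h3 : B * m v * m (A v) ≤ B * m v * (e * ‖A v‖) :=
      mul_le_mul_of_nonneg_left h2 (mul_nonneg hB hm)
    have h4 : ‖A v‖ * ‖A v‖ ≤ (B * e * m v) * ‖A v‖ := by
      calc ‖A v‖ * ‖A v‖ = ‖A v‖ ^ 2 := by ring
        _ ≤ B * m v * m (A v) := h1
        _ ≤ B * m v * (e * ‖A v‖) := h3
        _ = (B * e * m v) * ‖A v‖ := by ring
    exact le_of_mul_le_mul_right h4 hpos

lemma poly1 {e σ K : ℝ} (he0 : 0 ≤ e) (hσ0 : 0 ≤ σ) (hK : 0 ≤ K) :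
    e + 2 * e * K + K * σ + K ^ 2 * σ ≤ 2 * (1 + K) ^ 2 * (e + σ) := by
  have h1 := mul_nonneg he0 hK
  have h2 := mul_nonneg hK hσ0
  have h3 := mul_nonneg (mul_nonneg hK hK) he0
  have h4 := mul_nonneg (mul_nonneg hK hK) hσ0
  nlinarith

lemma poly2 {e σ K : ℝ} (he0 : 0 ≤ e) (hσ0 : 0 ≤ σ) (hK : 0 ≤ K) :
    e + e + K * σ ≤ 2 * (1 + K) ^ 2 * (e + σ) := by
  have h1 := mul_nonneg he0 hK
  have h2 := mul_nonneg hK hσ0
  have h3 := mul_nonneg (mul_nonneg hK hK) he0
  have h4 := mul_nonneg (mul_nonneg hK hK) hσ0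
  nlinarith

lemma poly3 {e σ K : ℝ} (he0 : 0 ≤ e) (hσ0 : 0 ≤ σ) (hK : 0 ≤ K) :
    e * K + (1 / 2) * K ^ 2 * σ ≤ (1 + K) ^ 2 * (e + σ) := by
  have h1 := mul_nonneg he0 hK
  have h2 := mul_nonneg hK hσ0
  have h3 := mul_nonneg (mul_nonneg hK hK) he0
  have h4 := mul_nonneg (mul_nonneg hK hK) hσ0
  nlinarith

lemma total_le {C r d V μ ν e σ K B : ℝ} (hC : 0 < C) (hr : 0 < r) (hd : 0 ≤ d) (hV : 0 ≤ V)
    (hμ : 0 ≤ μ) (hν : 0 ≤ ν) (he0 : 0 ≤ e) (hσ0 : 0 ≤ σ) (hK : 0 ≤ K) (hB : 0 ≤ B)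
    (hσv : σ * V ≤ 2 * μ) :
    C / r * d * (B * e * μ) +
      C / r ^ 2 * d * V * (B * e * (K * σ * r)) +
      C / r * V * (B * e * ν) +
      B * (K * σ * r) * μ * (C / r ^ 2 * d) +
      B * ν * (e * V) * (C / r) +
      (1 / 2) * (B * (K * σ * r) * (K * σ * r)) * (C / r ^ 3 * d * V) +
      (1 / 2) * (2 * B * (K * σ * r) * ν) * (C / r ^ 2 * V) ≤
      2 * C * (1 + K) ^ 2 * B * (e + σ) / r * (d * μ + V * ν) := by
  have lhs : C / r * d * (B * e * μ) +
      C / r ^ 2 * d * V * (B * e * (K * σ * r)) +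
      C / r * V * (B * e * ν) +
      B * (K * σ * r) * μ * (C / r ^ 2 * d) +
      B * ν * (e * V) * (C / r) +
      (1 / 2) * (B * (K * σ * r) * (K * σ * r)) * (C / r ^ 3 * d * V) +
      (1 / 2) * (2 * B * (K * σ * r) * ν) * (C / r ^ 2 * V) =
      (C * B / r) * (d * (e * μ + e * K * (σ * V) + K * σ * μ + (1 / 2) * K ^ 2 * σ * (σ * V)) +
        V * ν * (e + e + K * σ)) := by
    field_simp
    ring
  rw [lhs]
  have rhs : 2 * C * (1 + K) ^ 2 * B * (e + σ) / r * (d * μ + V * ν) =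
      (C * B / r) * (d * (2 * (1 + K) ^ 2 * (e + σ) * μ) +
        V * ν * (2 * (1 + K) ^ 2 * (e + σ))) := by
    field_simp
  rw [rhs]
  apply mul_le_mul_of_nonneg_left _ (by positivity)
  have k3 : e * μ + e * K * (σ * V) + K * σ * μ + (1 / 2) * K ^ 2 * σ * (σ * V) ≤
        (e + 2 * e * K + K * σ + K ^ 2 * σ) * μ := by
    have a1 : e * K * (σ * V) ≤ e * K * (2 * μ) :=
      mul_le_mul_of_nonneg_left hσv (by positivity)
    have a2 : (1 / 2) * K ^ 2 * σ * (σ * V) ≤ (1 / 2) * K ^ 2 * σ * (2 * μ) :=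
      mul_le_mul_of_nonneg_left hσv (by positivity)
    have e1 : (e + 2 * e * K + K * σ + K ^ 2 * σ) * μ =
      e * μ + e * K * (2 * μ) + K * σ * μ + (1 / 2) * K ^ 2 * σ * (2 * μ) := by ring
    rw [e1]
    linarith
  refine add_le_add (mul_le_mul_of_nonneg_left (k3.trans ?_) hd) ?_
  · exact mul_le_mul_of_nonneg_right (poly1 he0 hσ0 hK) hμ
  · exact mul_le_mul_of_nonneg_left (poly2 he0 hσ0 hK) (by positivity)

/-- the one-term difference bound, when the cell is relevant for the first point -/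
lemma tT_sub_le_aux (hr : 0 < D.r) (hc : Cs m σ e K B) (hz : D.GP m σ K B z)
    (hz' : D.GP m σ K B z') {a : Fin n → ℤ} (ha : a ∈ D.s) (hR : Rel D.r a z) (v : EE n) :
    ‖D.tT a z v - D.tT a z' v‖ ≤
      2 * CX n * (1 + K) ^ 2 * B * (e + σ) / D.r * (‖z - z'‖ * m v + ‖v‖ * m (z - z')) := by
  have hC := CX_pos n
  have hxx : (z - D.q a) - (z' - D.q a) = z - z' := by abel
  obtain ⟨hZ, hqx⟩ := hz a ha hR
  have hZn : ∀ v, ‖D.Z a v‖ ≤ B * e * m v := norm_Z_le hc.hB hc.he hc.he0 hZ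
  have hd0 : 0 ≤ ‖z - z'‖ := norm_nonneg _
  have hv0 : 0 ≤ ‖v‖ := norm_nonneg _
  have hmv0 : 0 ≤ m v := apply_nonneg m v
  have hmd0 : 0 ≤ m (z - z') := apply_nonneg m _
  have hmx0 : 0 ≤ m (z - D.q a) := apply_nonneg m _
  have hσv := hc.hσ v
  have hev := hc.he v
  have hB := hc.hB
  have hK := hc.hK
  have hσ0 := hc.hσ0
  have he0 := hc.he0
  have hKσ : 0 ≤ K * σ * D.r := by positivity
  -- the differences
  have t1 : ‖(chi D.r a z - chi D.r a z') • D.Z a v‖ ≤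
      CX n / D.r * ‖z - z'‖ * (B * e * m v) := by
    rw [norm_smul, Real.norm_eq_abs]
    exact mul_le_mul (chi_lip hr a z z') (hZn v) (norm_nonneg _) (by positivity)
  have t2a : ‖inner ℝ (gchi D.r a z - gchi D.r a z') v • D.Z a (z - D.q a)‖ ≤
      CX n / D.r ^ 2 * ‖z - z'‖ * ‖v‖ * (B * e * (K * σ * D.r)) := by
    rw [norm_smul]
    refine mul_le_mul ?_ ((hZn _).trans (mul_le_mul_of_nonneg_left hqx (by positivity)))
      (norm_nonneg _) (by positivity)
    exact (norm_inner_le_norm _ _).trans (mul_le_mul_of_nonneg_right (gchi_lip hr a z z') hv0)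
  have t2b : ‖inner ℝ (gchi D.r a z') v • D.Z a (z - z')‖ ≤
      CX n / D.r * ‖v‖ * (B * e * m (z - z')) := by
    rw [norm_smul]
    refine mul_le_mul ?_ (hZn _) (norm_nonneg _) (by positivity)
    exact (norm_inner_le_norm _ _).trans (mul_le_mul_of_nonneg_right (norm_gchi_le hr a z') hv0)
  have t3a : ‖inner ℝ (D.Z a (z - D.q a)) v • (gchi D.r a z - gchi D.r a z')‖ ≤
      B * (K * σ * D.r) * m v * (CX n / D.r ^ 2 * ‖z - z'‖) := by
    rw [norm_smul]
    refine mul_le_mul ?_ (gchi_lip hr a z z') (norm_nonneg _) (by positivity)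
    rw [Real.norm_eq_abs]
    refine (hZ _ v).trans ?_
    exact mul_le_mul_of_nonneg_right (mul_le_mul_of_nonneg_left hqx hB) hmv0
  have t3b : ‖inner ℝ (D.Z a (z - z')) v • gchi D.r a z'‖ ≤
      B * m (z - z') * (e * ‖v‖) * (CX n / D.r) := by
    rw [norm_smul]
    refine mul_le_mul ?_ (norm_gchi_le hr a z') (norm_nonneg _) (by positivity)
    rw [Real.norm_eq_abs]
    refine (hZ _ v).trans ?_
    exact mul_le_mul_of_nonneg_left hev (by positivity)
  have q1 : |D.qf a z| ≤ B * (K * σ * D.r) * (K * σ * D.r) := by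
    unfold qf
    refine (hZ _ _).trans ?_
    exact mul_le_mul (mul_le_mul_of_nonneg_left hqx hB) hqx hmx0 (by positivity)
  have t4a : ‖(-((1 / 2) * D.qf a z)) • (hchi D.r a z - hchi D.r a z') v‖ ≤
      (1 / 2) * (B * (K * σ * D.r) * (K * σ * D.r)) * (CX n / D.r ^ 3 * ‖z - z'‖ * ‖v‖) := by
    rw [norm_smul]
    refine mul_le_mul ?_ ?_ (norm_nonneg _) (by positivity)
    · rw [Real.norm_eq_abs, abs_neg, abs_mul, abs_of_pos (by norm_num : (0 : ℝ) < 1 / 2)]
      exact mul_le_mul_of_nonneg_left q1 (by norm_num)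
    · exact (ContinuousLinearMap.le_opNorm _ _).trans
        (mul_le_mul_of_nonneg_right (hchi_lip hr a z z') hv0)
  have t4b : ‖(-((1 / 2) * (D.qf a z - D.qf a z'))) • hchi D.r a z' v‖ ≤
      (1 / 2) * (2 * B * (K * σ * D.r) * m (z - z')) * (CX n / D.r ^ 2 * ‖v‖) := by
    by_cases hR' : Rel D.r a z'
    · obtain ⟨-, hqx'⟩ := hz' a ha hR'
      have q2 : |D.qf a z - D.qf a z'| ≤ 2 * B * (K * σ * D.r) * m (z - z') := by
        have e1 : D.qf a z - D.qf a z' = inner ℝ (D.Z a (z - z')) (z - D.q a) +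
            inner ℝ (D.Z a (z' - D.q a)) (z - z') := by
          unfold qf
          have e2 : D.Z a (z - z') = D.Z a (z - D.q a) - D.Z a (z' - D.q a) := by
            rw [← map_sub, hxx]
          have e3 : inner ℝ (D.Z a (z' - D.q a)) (z - z') =
              inner ℝ (D.Z a (z' - D.q a)) (z - D.q a) -
                inner ℝ (D.Z a (z' - D.q a)) (z' - D.q a) := by
            rw [← inner_sub_right, hxx]
          rw [e2, e3, inner_sub_left]
          ring
        rw [e1]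
        refine (abs_add_le _ _).trans ?_
        have a1 := (hZ (z - z') (z - D.q a)).trans
          (mul_le_mul_of_nonneg_left hqx (mul_nonneg hB hmd0))
        have a2 := (hZ (z' - D.q a) (z - z')).trans
          (mul_le_mul_of_nonneg_right (mul_le_mul_of_nonneg_left hqx' hB) hmd0)
        calc _ ≤ B * m (z - z') * (K * σ * D.r) + B * (K * σ * D.r) * m (z - z') :=
              add_le_add a1 a2
          _ = _ := by ring
      rw [norm_smul]
      refine mul_le_mul ?_ ?_ (norm_nonneg _) (by positivity)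
      · rw [Real.norm_eq_abs, abs_neg, abs_mul, abs_of_pos (by norm_num : (0 : ℝ) < 1 / 2)]
        exact mul_le_mul_of_nonneg_left q2 (by norm_num)
      · exact (ContinuousLinearMap.le_opNorm _ _).trans
          (mul_le_mul_of_nonneg_right (norm_hchi_le hr a z') hv0)
    · rw [hchi_zero hr hR']
      change ‖(-((1 / 2) * (D.qf a z - D.qf a z'))) • (0 : EE n)‖ ≤ _
      rw [smul_zero, norm_zero]
      positivity
  have key : D.tT a z v - D.tT a z' v =
      (chi D.r a z - chi D.r a z') • D.Z a v +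
      inner ℝ (gchi D.r a z - gchi D.r a z') v • D.Z a (z - D.q a) +
      inner ℝ (gchi D.r a z') v • D.Z a (z - z') -
      inner ℝ (D.Z a (z - D.q a)) v • (gchi D.r a z - gchi D.r a z') -
      inner ℝ (D.Z a (z - z')) v • gchi D.r a z' +
      (-((1 / 2) * D.qf a z)) • (hchi D.r a z - hchi D.r a z') v +
      (-((1 / 2) * (D.qf a z - D.qf a z'))) • hchi D.r a z' v := by
    have e2 : D.Z a (z - z') = D.Z a (z - D.q a) - D.Z a (z' - D.q a) := by
      rw [← map_sub, hxx]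
    have e4 : (hchi D.r a z - hchi D.r a z') v = hchi D.r a z v - hchi D.r a z' v := rfl
    rw [tT_apply, tT_apply, e2, e4, inner_sub_left, inner_sub_left]
    module
  rw [key]
  refine (norm_add_le _ _).trans ?_
  refine le_trans (add_le_add ((norm_add_le _ _).trans (add_le_add ((norm_sub_le _ _).trans
    (add_le_add ((norm_sub_le _ _).trans (add_le_add ((norm_add_le _ _).trans (add_le_add
      ((norm_add_le _ _).trans (add_le_add t1 t2a)) t2b)) t3a)) t3b)) t4a)) t4b) ?_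
  exact total_le hC hr hd0 hv0 hmv0 hmd0 he0 hσ0 hK hB hσv

/-- the one-term difference bound -/
lemma tT_sub_le (hr : 0 < D.r) (hc : Cs m σ e K B) (hz : D.GP m σ K B z)
    (hz' : D.GP m σ K B z') {a : Fin n → ℤ} (ha : a ∈ D.s)
    (hR : Rel D.r a z ∨ Rel D.r a z') (v : EE n) :
    ‖D.tT a z v - D.tT a z' v‖ ≤
      2 * CX n * (1 + K) ^ 2 * B * (e + σ) / D.r * (‖z - z'‖ * m v + ‖v‖ * m (z - z')) := by
  rcases hR with hR | hR
  · exact tT_sub_le_aux hr hc hz hz' ha hR v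
  · have := tT_sub_le_aux hr hc hz' hz ha hR v
    rw [norm_sub_rev, norm_sub_rev z z', map_sub_rev m z z']
    exact this

/-- **Class lemma** -/
theorem class_lemma (hr : 0 < D.r) (hc : Cs m σ e K B) (hz : D.GP m σ K B z)
    (hz' : D.GP m σ K B z') (v : EE n) :
    ‖D.T z v - D.T z' v‖ ≤
      4 * 3 ^ n * CX n * (1 + K) ^ 2 * B * (e + σ) / D.r *
        (‖z - z'‖ * m v + ‖v‖ * m (z - z')) := by
  have e1 : D.T z v - D.T z' v = ∑ a ∈ D.s, (D.tT a z v - D.tT a z' v) := by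
    rw [T_eq_sum, T_eq_sum, _root_.sum_apply, _root_.sum_apply,
      Finset.sum_sub_distrib]
  rw [e1]
  have hC := CX_pos n
  have hB := hc.hB
  have hσ0 := hc.hσ0
  have he0 := hc.he0
  have hK := hc.hK
  have hM : 0 ≤ 2 * CX n * (1 + K) ^ 2 * B * (e + σ) / D.r *
      (‖z - z'‖ * m v + ‖v‖ * m (z - z')) := by
    have := apply_nonneg m v
    have := apply_nonneg m (z - z')
    positivity
  refine (norm_sum_le hr z z' D.s _ hM (fun a ha hR => tT_sub_le hr hc hz hz' ha hR v) ?_).trans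
    (le_of_eq ?_)
  · intro a _ h1 h2
    rw [D.tT_zero hr h1, D.tT_zero hr h2, sub_zero]
  · ring

/-- bound of `Psi z - z` -/
theorem norm_Psi_sub_le (hr : 0 < D.r) (h : Cs m σ e K B) (hz : D.GP m σ K B z) :
    ‖D.Psi z - z‖ ≤ 2 * 3 ^ n * (CX n * (1 + K) ^ 2 * B * (e + σ) * σ * D.r) := by
  have e1 : D.Psi z - z = ∑ a ∈ D.s, D.psiT a z := by
    unfold Psi
    abel
  rw [e1]
  have hC := CX_pos n
  have hC1 := one_le_CX n
  have hB := h.hB
  have hσ0 := h.hσ0
  have he0 := h.he0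
  have hK := h.hK
  refine norm_sum_le hr z z D.s _ (by positivity) ?_ (fun a _ h1 _ => D.psiT_zero hr h1)
  intro a ha hR
  obtain ⟨hZ, hqx⟩ := hz a ha (hR.elim id id)
  have hZn : ∀ v, ‖D.Z a v‖ ≤ B * e * m v := norm_Z_le h.hB h.he h.he0 hZ
  have hmx0 : 0 ≤ m (z - D.q a) := apply_nonneg m _
  unfold psiT
  have t1 : ‖chi D.r a z • D.Z a (z - D.q a)‖ ≤ B * e * (K * σ * D.r) := by
    rw [norm_smul, Real.norm_eq_abs, abs_of_nonneg (chi_nonneg _ _ _)]
    refine (mul_le_mul (chi_le_one _ _ _) (hZn _) (norm_nonneg _) zero_le_one).trans ?_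
    rw [one_mul]
    exact mul_le_mul_of_nonneg_left hqx (by positivity)
  have t2 : ‖((1 / 2) * D.qf a z) • gchi D.r a z‖ ≤
      (1 / 2) * (B * (K * σ * D.r) * (K * σ * D.r)) * (CX n / D.r) := by
    rw [norm_smul]
    refine mul_le_mul ?_ (norm_gchi_le hr a z) (norm_nonneg _) (by positivity)
    rw [Real.norm_eq_abs, abs_mul, abs_of_pos (by norm_num : (0 : ℝ) < 1 / 2)]
    refine mul_le_mul_of_nonneg_left ?_ (by norm_num)
    unfold qf
    refine (hZ _ _).trans ?_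
    exact mul_le_mul (mul_le_mul_of_nonneg_left hqx hB) hqx hmx0 (by positivity)
  refine (norm_sub_le _ _).trans ((add_le_add t1 t2).trans ?_)
  have e2 : (1 / 2) * (B * (K * σ * D.r) * (K * σ * D.r)) * (CX n / D.r) =
      B * σ * D.r * (CX n * ((1 / 2) * K ^ 2 * σ)) := by
    field_simp
  rw [e2]
  have e3 : CX n * (1 + K) ^ 2 * B * (e + σ) * σ * D.r =
      B * σ * D.r * (CX n * ((1 + K) ^ 2 * (e + σ))) := by ring
  rw [e3, show B * e * (K * σ * D.r) = B * σ * D.r * (e * K) by ring, ← mul_add]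
  apply mul_le_mul_of_nonneg_left _ (by positivity)
  have k1 : e * K ≤ CX n * (e * K) := by nlinarith [mul_nonneg he0 hK]
  have k2 : e * K + (1 / 2) * K ^ 2 * σ ≤ (1 + K) ^ 2 * (e + σ) := poly3 he0 hσ0 hK
  calc e * K + CX n * ((1 / 2) * K ^ 2 * σ) ≤ CX n * (e * K + (1 / 2) * K ^ 2 * σ) := by
        rw [mul_add]; linarith
    _ ≤ _ := mul_le_mul_of_nonneg_left k2 hC.le

/-- bound of `Q` -/
theorem norm_QQ_le (hr : 0 < D.r) (h : Cs m σ e K B) (hz : D.GP m σ K B z) :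
    ‖D.QQ z‖ ≤ 3 ^ n * (CX n * K ^ 2 * B * σ ^ 2) := by
  unfold QQ
  have hC := CX_pos n
  have hB := h.hB
  have hσ0 := h.hσ0
  have he0 := h.he0
  have hK := h.hK
  have h1 := norm_sum_le (V := EE n →L[ℝ] EE n) hr z z D.s (fun a => D.qqT a z)
    (M := (1 / 2) * (CX n * K ^ 2 * B * σ ^ 2)) (by positivity) ?_ ?_
  · refine h1.trans (le_of_eq ?_)
    ring
  · intro a ha hR
    obtain ⟨hZ, hqx⟩ := hz a ha (hR.elim id id)
    have hmx0 : 0 ≤ m (z - D.q a) := apply_nonneg m _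
    unfold qqT
    rw [norm_smul]
    have e0 : (1 / 2) * (CX n * K ^ 2 * B * σ ^ 2) =
      ((1 / 2) * (B * (K * σ * D.r) * (K * σ * D.r))) * (CX n / D.r ^ 2) := by
      field_simp
    rw [e0]
    refine mul_le_mul ?_ (norm_hchi_le hr a z) (norm_nonneg _) (by positivity)
    rw [Real.norm_eq_abs, abs_neg, abs_mul, abs_of_pos (by norm_num : (0 : ℝ) < 1 / 2)]
    refine mul_le_mul_of_nonneg_left ?_ (by norm_num)
    unfold qf
    refine (hZ _ _).trans ?_
    exact mul_le_mul (mul_le_mul_of_nonneg_left hqx hB) hqx hmx0 (by positivity)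
  · intro a _ hn _
    ext1 v
    exact D.qqT_zero hr hn v

/-- bound of `T v` -/
theorem norm_T_le (hr : 0 < D.r) (h : Cs m σ e K B) (hz : D.GP m σ K B z) (v : EE n) :
    ‖D.T z v‖ ≤ 4 * 3 ^ n * CX n * (1 + K) ^ 2 * B * (e + σ) * m v := by
  rw [T_eq_sum, _root_.sum_apply]
  have hC := CX_pos n
  have hC1 := one_le_CX n
  have hB := h.hB
  have hσ0 := h.hσ0
  have he0 := h.he0
  have hK := h.hK
  have hmv0 : 0 ≤ m v := apply_nonneg m v
  have hv0 : 0 ≤ ‖v‖ := norm_nonneg _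
  have hσv := h.hσ v
  refine (norm_sum_le hr z z D.s _
    (M := 2 * CX n * (1 + K) ^ 2 * B * (e + σ) * m v) (by positivity) ?_
    (fun a _ h1 _ => D.tT_zero hr h1 v)).trans (le_of_eq (by ring))
  intro a ha hR
  obtain ⟨hZ, hqx⟩ := hz a ha (hR.elim id id)
  have hZn : ∀ v, ‖D.Z a v‖ ≤ B * e * m v := norm_Z_le h.hB h.he h.he0 hZ
  have hmx0 : 0 ≤ m (z - D.q a) := apply_nonneg m _
  have t1 : ‖chi D.r a z • D.Z a v‖ ≤ B * e * m v := by
    rw [norm_smul, Real.norm_eq_abs, abs_of_nonneg (chi_nonneg _ _ _)]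
    refine (mul_le_mul (chi_le_one _ _ _) (hZn _) (norm_nonneg _) zero_le_one).trans ?_
    rw [one_mul]
  have t2 : ‖inner ℝ (gchi D.r a z) v • D.Z a (z - D.q a)‖ ≤
      (CX n / D.r * ‖v‖) * (B * e * (K * σ * D.r)) := by
    rw [norm_smul]
    refine mul_le_mul ?_ ((hZn _).trans (mul_le_mul_of_nonneg_left hqx (by positivity)))
      (norm_nonneg _) (by positivity)
    exact (norm_inner_le_norm _ _).trans (mul_le_mul_of_nonneg_right (norm_gchi_le hr a z) hv0)
  have t3 : ‖inner ℝ (D.Z a (z - D.q a)) v • gchi D.r a z‖ ≤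
      (B * (K * σ * D.r) * m v) * (CX n / D.r) := by
    rw [norm_smul]
    refine mul_le_mul ?_ (norm_gchi_le hr a z) (norm_nonneg _) (by positivity)
    rw [Real.norm_eq_abs]
    refine (hZ _ v).trans ?_
    exact mul_le_mul_of_nonneg_right (mul_le_mul_of_nonneg_left hqx hB) hmv0
  have t4 : ‖(-((1 / 2) * D.qf a z)) • hchi D.r a z v‖ ≤
      ((1 / 2) * (B * (K * σ * D.r) * (K * σ * D.r))) * (CX n / D.r ^ 2 * ‖v‖) := by
    rw [norm_smul]
    refine mul_le_mul ?_ ?_ (norm_nonneg _) (by positivity)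
    · rw [Real.norm_eq_abs, abs_neg, abs_mul, abs_of_pos (by norm_num : (0 : ℝ) < 1 / 2)]
      refine mul_le_mul_of_nonneg_left ?_ (by norm_num)
      unfold qf
      refine (hZ _ _).trans ?_
      exact mul_le_mul (mul_le_mul_of_nonneg_left hqx hB) hqx hmx0 (by positivity)
    · exact (ContinuousLinearMap.le_opNorm _ _).trans
        (mul_le_mul_of_nonneg_right (norm_hchi_le hr a z) hv0)
  rw [tT_apply]
  have n1 := norm_add_le (chi D.r a z • D.Z a v +
      (inner ℝ (gchi D.r a z) v • D.Z a (z - D.q a) -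
        inner ℝ (D.Z a (z - D.q a)) v • gchi D.r a z))
      ((-((1 / 2) * D.qf a z)) • hchi D.r a z v)
  have n2 := norm_add_le (chi D.r a z • D.Z a v)
      (inner ℝ (gchi D.r a z) v • D.Z a (z - D.q a) -
        inner ℝ (D.Z a (z - D.q a)) v • gchi D.r a z)
  have n3 := norm_sub_le (inner ℝ (gchi D.r a z) v • D.Z a (z - D.q a))
        (inner ℝ (D.Z a (z - D.q a)) v • gchi D.r a z)
  have total : B * e * m v + (CX n / D.r * ‖v‖) * (B * e * (K * σ * D.r)) +
      (B * (K * σ * D.r) * m v) * (CX n / D.r) +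
      ((1 / 2) * (B * (K * σ * D.r) * (K * σ * D.r))) * (CX n / D.r ^ 2 * ‖v‖) ≤
      2 * CX n * (1 + K) ^ 2 * B * (e + σ) * m v := by
    have lhs : B * e * m v + (CX n / D.r * ‖v‖) * (B * e * (K * σ * D.r)) +
      (B * (K * σ * D.r) * m v) * (CX n / D.r) +
      ((1 / 2) * (B * (K * σ * D.r) * (K * σ * D.r))) * (CX n / D.r ^ 2 * ‖v‖) =
      B * (e * m v + CX n * (e * K * (σ * ‖v‖) + K * σ * m v +
        (1 / 2) * K ^ 2 * σ * (σ * ‖v‖))) := by
      field_simp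
      ring
    rw [lhs, show 2 * CX n * (1 + K) ^ 2 * B * (e + σ) * m v =
      B * (CX n * (2 * (1 + K) ^ 2 * (e + σ) * m v)) by ring]
    apply mul_le_mul_of_nonneg_left _ hB
    have a0 : e * m v ≤ CX n * (e * m v) := by nlinarith [mul_nonneg he0 hmv0]
    have a1 : e * K * (σ * ‖v‖) ≤ e * K * (2 * m v) :=
      mul_le_mul_of_nonneg_left hσv (by positivity)
    have a2 : (1 / 2) * K ^ 2 * σ * (σ * ‖v‖) ≤ (1 / 2) * K ^ 2 * σ * (2 * m v) :=
      mul_le_mul_of_nonneg_left hσv (by positivity)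
    have k1 : e + 2 * e * K + K * σ + K ^ 2 * σ ≤ 2 * (1 + K) ^ 2 * (e + σ) := poly1 he0 hσ0 hK
    calc e * m v + CX n * (e * K * (σ * ‖v‖) + K * σ * m v +
        (1 / 2) * K ^ 2 * σ * (σ * ‖v‖)) ≤ CX n * (e * m v) +
          CX n * (e * K * (2 * m v) + K * σ * m v + (1 / 2) * K ^ 2 * σ * (2 * m v)) := by
          refine add_le_add a0 (mul_le_mul_of_nonneg_left ?_ hC.le)
          linarith
      _ = CX n * ((e + 2 * e * K + K * σ + K ^ 2 * σ) * m v) := by ring
      _ ≤ CX n * (2 * (1 + K) ^ 2 * (e + σ) * m v) :=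
          mul_le_mul_of_nonneg_left (mul_le_mul_of_nonneg_right k1 hmv0) hC.le
  linarith

/-- **Mean value bound** along a segment of good points -/
theorem mean_value (hZs : ∀ a ∈ D.s, ∀ v w, inner ℝ (D.Z a v) w = inner ℝ v (D.Z a w))
    (hr : 0 < D.r) (hc : Cs m σ e K B)
    {w : EE n} (h : ∀ t ∈ Set.Icc (0 : ℝ) 1, D.GP m σ K B (z + t • w)) :
    ‖D.Psi (z + w) - D.Psi z - (w + D.T z w)‖ ≤
      8 * 3 ^ n * CX n * (1 + K) ^ 2 * B * (e + σ) / D.r * (‖w‖ * m w) := by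
  set L := 4 * 3 ^ n * CX n * (1 + K) ^ 2 * B * (e + σ) / D.r with hL
  have h0 : D.GP m σ K B z := by
    have := h 0 (by simp)
    rwa [zero_smul, add_zero] at this
  have hC := CX_pos n
  have hB := hc.hB
  have hσ0 := hc.hσ0
  have he0 := hc.he0
  have hK := hc.hK
  have hL0 : 0 ≤ L := by rw [hL]; positivity
  set f : ℝ → EE n := fun t => D.Psi (z + t • w) - D.Psi z - t • (w + D.T z w) with hf
  have hder : ∀ t : ℝ, HasDerivAt f (D.T (z + t • w) w - D.T z w) t := by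
    intro t
    have h1 : HasDerivAt (fun t : ℝ => z + t • w) w t := by
      have := ((hasDerivAt_id t).smul_const w).const_add z
      simpa using this
    have h2 := (D.hasFDerivAt_Psi hZs (z + t • w)).comp_hasDerivAt t h1
    have h3 := (h2.sub_const (D.Psi z)).sub ((hasDerivAt_id t).smul_const (w + D.T z w))
    refine h3.congr_deriv ?_
    simp only [add_apply, ContinuousLinearMap.id_apply, one_smul]
    abel
  have hb : ∀ t ∈ Set.Ico (0 : ℝ) 1, ‖D.T (z + t • w) w - D.T z w‖ ≤ 2 * L * (‖w‖ * m w) := by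
    intro t ht
    have hcl := class_lemma hr hc (h t ⟨ht.1, ht.2.le⟩) h0 w
    refine hcl.trans ?_
    have e1 : z + t • w - z = t • w := by abel
    rw [e1, norm_smul, map_smul_eq_mul, Real.norm_eq_abs, abs_of_nonneg ht.1]
    have hm : 0 ≤ m w := apply_nonneg m w
    have : t * ‖w‖ * m w + ‖w‖ * (t * m w) ≤ 2 * (‖w‖ * m w) := by
      have h1 : t * (‖w‖ * m w) ≤ 1 * (‖w‖ * m w) :=
        mul_le_mul_of_nonneg_right ht.2.le (by positivity)
      calc t * ‖w‖ * m w + ‖w‖ * (t * m w) = 2 * (t * (‖w‖ * m w)) := by ring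
        _ ≤ 2 * (1 * (‖w‖ * m w)) := mul_le_mul_of_nonneg_left h1 (by norm_num)
        _ = _ := by ring
    calc 4 * 3 ^ n * CX n * (1 + K) ^ 2 * B * (e + σ) / D.r *
          (t * ‖w‖ * m w + ‖w‖ * (t * m w)) ≤ L * (2 * (‖w‖ * m w)) :=
          mul_le_mul_of_nonneg_left this hL0
      _ = 2 * L * (‖w‖ * m w) := by ring
  have hfin := norm_image_sub_le_of_norm_deriv_le_segment_01'
    (f := f) (f' := fun t => D.T (z + t • w) w - D.T z w) (C := 2 * L * (‖w‖ * m w))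
    (fun t _ => (hder t).hasDerivWithinAt) hb
  have e2 : f 1 - f 0 = D.Psi (z + w) - D.Psi z - (w + D.T z w) := by
    simp [hf]
  rw [e2] at hfin
  refine hfin.trans (le_of_eq ?_)
  rw [hL]
  ring

end PD

end

end Vale.Agent.P242.H266
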